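import Vale.Agent.P075.Main

open MeasureTheory

namespace Vale.Agent.P075

lemma Admissible.memLp {F : ℝ × ℝ → ℝ} (h : Admissible F) :
    MemLp F 3 (volume.restrict quad) := by
  obtain ⟨hm, ⟨M, hM⟩, R, hR⟩ := h
  have hq : MeasurableSet quad := measurableSet_Ici.prod measurableSet_Ici
  have hs : MeasurableSet (Set.Icc (0 : ℝ) R ×ˢ Set.Icc (0 : ℝ) R) :=
    measurableSet_Icc.prod measurableSet_Icc
  have hfin : volume.restrict quad (Set.Icc (0 : ℝ) R ×ˢ Set.Icc (0 : ℝ) R) ≠ ⊤ :=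
    ((Measure.restrict_le_self _).trans_lt
      (isCompact_Icc.prod isCompact_Icc).measure_lt_top).ne
  refine (memLp_indicator_const 3 hs M (Or.inr hfin)).mono' hm.aestronglyMeasurable ?_
  filter_upwards [ae_restrict_mem hq] with x hx
  by_cases h : x ∈ Set.Icc (0 : ℝ) R ×ˢ Set.Icc (0 : ℝ) R
  · rw [Set.indicator_of_mem h]
    exact hM x hx
  · rw [Set.indicator_of_notMem h, hR x hx]
    · simp
    · by_contra hc
      push Not at hc
      exact h ⟨⟨hx.1, hc.1⟩, hx.2, hc.2⟩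

end Vale.Agent.P075
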