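import Mathlib.MeasureTheory.Integral.Bochner.Set
import Mathlib.MeasureTheory.Measure.Lebesgue.Basic
import Mathlib.MeasureTheory.Function.LpSeminorm.Basic

open MeasureTheory

namespace Vale.Agent.P075

/-- The quadrant `[0,∞)²`. -/
def quad : Set (ℝ × ℝ) := Set.Ici 0 ×ˢ Set.Ici 0

/-- The dyadic interval `[2^k n, 2^k (n+1))`. -/
def dyad (k : ℤ) (n : ℕ) : Set ℝ := Set.Ico ((2 : ℝ) ^ k * n) ((2 : ℝ) ^ k * (n + 1))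

/-- The Haar function of `[2^k n, 2^k (n+1))`: indicator of the left half minus indicator of the
right half. -/
noncomputable def haar (k : ℤ) (n : ℕ) (x : ℝ) : ℝ :=
  (Set.Ico ((2 : ℝ) ^ k * n) ((2 : ℝ) ^ k * (n + 1 / 2))).indicator 1 x
    - (Set.Ico ((2 : ℝ) ^ k * (n + 1 / 2)) ((2 : ℝ) ^ k * (n + 1))).indicator 1 x

/-- Index triples `(n₀, n₁, n₂)` whose bitwise XOR vanishes. -/
def triples : Set (ℕ × ℕ × ℕ) := {n | n.1 ^^^ n.2.1 ^^^ n.2.2 = 0}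

/-- The cube `I₀ × I₁ × I₂` of three dyadic intervals of length `2^k`. -/
def cube (k : ℤ) (n : ℕ × ℕ × ℕ) : Set (ℝ × ℝ × ℝ) :=
  dyad k n.1 ×ˢ dyad k n.2.1 ×ˢ dyad k n.2.2

/-- The integrand `F₀(x₀,x₁) F₁(x₁,x₂) F₂(x₂,x₀) h_{I₀}(x₀) h_{I₁}(x₁) h_{I₂}(x₂)`. -/
noncomputable def integrand (F₀ F₁ F₂ : ℝ × ℝ → ℝ) (k : ℤ) (n : ℕ × ℕ × ℕ) (x : ℝ × ℝ × ℝ) : ℝ :=
  F₀ (x.1, x.2.1) * F₁ (x.2.1, x.2.2) * F₂ (x.2.2, x.1)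
    * (haar k n.1 x.1 * haar k n.2.1 x.2.1 * haar k n.2.2 x.2.2)

/-- The local form `L_I`. -/
noncomputable def localForm (F₀ F₁ F₂ : ℝ × ℝ → ℝ) (k : ℤ) (n : ℕ × ℕ × ℕ) : ℝ :=
  (2 : ℝ) ^ (-k) * ∫ x in cube k n, integrand F₀ F₁ F₂ k n x

/-- The dyadic triangular Hilbert form `Λ^d_{S,ε}`. -/
noncomputable def dyadicForm (S : Finset ℤ) (ε : ℤ → ℝ) (F₀ F₁ F₂ : ℝ × ℝ → ℝ) : ℝ :=
  ∑ k ∈ S, ε k * ∑' n : triples, localForm F₀ F₁ F₂ k n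

/-- The norm of `L³([0,∞)²)`. -/
noncomputable def norm3 (F : ℝ × ℝ → ℝ) : ℝ := (eLpNorm F 3 (volume.restrict quad)).toReal

/-- A real function on `[0,∞)²` that is Lebesgue measurable, bounded and compactly supported. -/
def Admissible (F : ℝ × ℝ → ℝ) : Prop :=
  AEMeasurable F (volume.restrict quad) ∧ (∃ M : ℝ, ∀ x ∈ quad, |F x| ≤ M) ∧
    ∃ R : ℝ, ∀ x ∈ quad, R < x.1 ∨ R < x.2 → F x = 0

end Vale.Agent.P075
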