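import Vale.Agent.P075.Step
import Mathlib.Data.Nat.Bitwise

open Matrix Finset

namespace Vale.Agent.P075

/-- A dyadic block of an infinite array. -/
def block (d : ℕ) (a : ℕ → ℕ → ℝ) (n m : ℕ) : Matrix (Fin (2 ^ d)) (Fin (2 ^ d)) ℝ :=
  Matrix.of fun x y => a (n * 2 ^ d + x) (m * 2 ^ d + y)

/-- Splitting into two halves. -/
def halves (d : ℕ) : Fin 2 × Fin (2 ^ d) ≃ Fin (2 ^ (d + 1)) :=
  finProdFinEquiv.trans (finCongr (pow_succ' 2 d).symm)

lemma halves_val (d : ℕ) (j : Fin 2) (x : Fin (2 ^ d)) :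
    (halves d (j, x) : ℕ) = x + 2 ^ d * j := by
  simp [halves, finProdFinEquiv]

lemma blk_block (d : ℕ) (a : ℕ → ℕ → ℝ) (n m : ℕ) (i j : Fin 2) :
    blk (halves d) (block (d + 1) a n m) i j = block d a (2 * n + i) (2 * m + j) := by
  ext x y
  simp only [blk, block, submatrix_apply, of_apply, halves_val]
  congr 1 <;> ring

/-- The discrete Haar sign. -/
def hs (d x : ℕ) : ℝ := if x < 2 ^ d then 1 else -1

lemma sgn_halves (d : ℕ) : sgn (halves d) = diagonal fun x : Fin (2 ^ (d + 1)) => hs d x := by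
  unfold sgn
  congr 1
  funext x
  obtain ⟨⟨j, y⟩, rfl⟩ := (halves d).surjective x
  rw [Equiv.symm_apply_apply, halves_val]
  have := y.2
  fin_cases j <;> simp [sg, hs, this]

lemma trace_expand {n : Type*} [Fintype n] [DecidableEq n] (s : n → ℝ) (a b c : Matrix n n ℝ) :
    (diagonal s * a * diagonal s * b * diagonal s * c).trace
      = ∑ x, ∑ y, ∑ z, a x y * b y z * c z x * (s x * s y * s z) := by
  simp only [trace, Matrix.diag]
  refine Finset.sum_congr rfl fun x _ => ?_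
  rw [mul_apply, Finset.sum_comm]
  refine Finset.sum_congr rfl fun z _ => ?_
  rw [mul_diagonal, mul_apply, Finset.sum_mul, Finset.sum_mul]
  refine Finset.sum_congr rfl fun y _ => ?_
  rw [mul_diagonal, diagonal_mul]
  ring

/-- The discrete trilinear form at scale `d + 1`. -/
def tri (d : ℕ) (a b c : ℕ → ℕ → ℝ) (n0 n1 n2 : ℕ) : ℝ :=
  ∑ x ∈ range (2 ^ (d + 1)), ∑ y ∈ range (2 ^ (d + 1)), ∑ z ∈ range (2 ^ (d + 1)),
    a (n0 * 2 ^ (d + 1) + x) (n1 * 2 ^ (d + 1) + y) * b (n1 * 2 ^ (d + 1) + y) (n2 * 2 ^ (d + 1) + z)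
      * c (n2 * 2 ^ (d + 1) + z) (n0 * 2 ^ (d + 1) + x) * (hs d x * hs d y * hs d z)

lemma tri_eq (d : ℕ) (a b c : ℕ → ℕ → ℝ) (n0 n1 n2 : ℕ) :
    (sgn (halves d) * block (d + 1) a n0 n1 * sgn (halves d) * block (d + 1) b n1 n2
      * sgn (halves d) * block (d + 1) c n2 n0).trace = tri d a b c n0 n1 n2 := by
  rw [sgn_halves, trace_expand, tri]
  simp only [block, of_apply, Finset.sum_range]

lemma xor_child (n m : ℕ) (i j : Fin 2) :
    (2 * n + i) ^^^ (2 * m + j) = 2 * (n ^^^ m) + ((i + j : Fin 2) : ℕ) := by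
  have h00 := Nat.xor_bit false n false m
  have h01 := Nat.xor_bit false n true m
  have h10 := Nat.xor_bit true n false m
  have h11 := Nat.xor_bit true n true m
  simp only [Nat.bit_val] at h00 h01 h10 h11
  fin_cases i <;> fin_cases j
  · simpa using h00
  · simpa using h01
  · simpa using h10
  · exact h11

/-- The Bellman function of a triple of blocks. -/
noncomputable def Bd (ε : ℝ) (a b c : ℕ → ℕ → ℝ) (d n0 n1 : ℕ) : ℝ :=
  Bel (2 ^ d * ε) (block d a n0 n1) (block d b n1 (n0 ^^^ n1)) (block d c (n0 ^^^ n1) n0)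

lemma Bd_nonneg {ε : ℝ} (hε : 0 < ε) (a b c : ℕ → ℕ → ℝ) (d n0 n1 : ℕ) :
    0 ≤ Bd ε a b c d n0 n1 := Bel_nonneg (by positivity) _ _ _

lemma Bd_step {ε : ℝ} (hε : 0 < ε) (a b c : ℕ → ℕ → ℝ) (d n0 n1 : ℕ) :
    Bd ε a b c (d + 1) n0 n1 + 9 / 10 * |tri d a b c n0 n1 (n0 ^^^ n1)|
      ≤ 2 * ∑ i : Fin 2, ∑ j : Fin 2, Bd ε a b c d (2 * n0 + i) (2 * n1 + j) := by
  have := one_step (halves d) (ε := 2 ^ d * ε) (by positivity) (block (d + 1) a n0 n1)
    (block (d + 1) b n1 (n0 ^^^ n1)) (block (d + 1) c (n0 ^^^ n1) n0)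
  rw [tri_eq] at this
  simp only [blk_block] at this
  simp only [Bd, xor_child]
  rwa [show (2 : ℝ) ^ (d + 1) * ε = 2 * (2 ^ d * ε) by ring]

lemma sum_range_double (f : ℕ → ℝ) (N : ℕ) :
    ∑ n ∈ range (2 * N), f n = ∑ n ∈ range N, ∑ i : Fin 2, f (2 * n + i) := by
  induction N with
  | zero => simp
  | succ N ih =>
    rw [show 2 * (N + 1) = 2 * N + 1 + 1 by ring, sum_range_succ, sum_range_succ, ih,
      sum_range_succ, Fin.sum_univ_two]
    simp [add_assoc]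

lemma telescope {ε : ℝ} (hε : 0 < ε) (a b c : ℕ → ℕ → ℝ) (D : ℕ) : ∀ N : ℕ,
    (1 / 2 : ℝ) ^ D * ∑ n0 ∈ range N, ∑ n1 ∈ range N, Bd ε a b c D n0 n1
      + 9 / 10 * ∑ d ∈ range D, (1 / 2 : ℝ) ^ (d + 1) *
        ∑ n0 ∈ range N, ∑ n1 ∈ range N, |tri d a b c n0 n1 (n0 ^^^ n1)|
      ≤ ∑ n0 ∈ range (2 ^ D * N), ∑ n1 ∈ range (2 ^ D * N), Bd ε a b c 0 n0 n1 := by
  induction D with
  | zero => intro N; simp
  | succ D ih =>
    intro N
    have h1 := ih (2 * N)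
    rw [show 2 ^ D * (2 * N) = 2 ^ (D + 1) * N by ring] at h1
    have h2 : ∑ d ∈ range D, (1 / 2 : ℝ) ^ (d + 1) *
        ∑ n0 ∈ range N, ∑ n1 ∈ range N, |tri d a b c n0 n1 (n0 ^^^ n1)|
        ≤ ∑ d ∈ range D, (1 / 2 : ℝ) ^ (d + 1) *
        ∑ n0 ∈ range (2 * N), ∑ n1 ∈ range (2 * N), |tri d a b c n0 n1 (n0 ^^^ n1)| := by
      have hsub : range N ⊆ range (2 * N) := range_subset_range.2 (by omega)
      gcongr with d _
      calc _ ≤ ∑ n0 ∈ range N, ∑ n1 ∈ range (2 * N), |tri d a b c n0 n1 (n0 ^^^ n1)| :=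
            Finset.sum_le_sum fun n0 _ =>
              Finset.sum_le_sum_of_subset_of_nonneg hsub fun _ _ _ => abs_nonneg _
        _ ≤ _ := Finset.sum_le_sum_of_subset_of_nonneg hsub fun _ _ _ =>
              Finset.sum_nonneg fun _ _ => abs_nonneg _
    have h3 : ∑ n0 ∈ range N, ∑ n1 ∈ range N, Bd ε a b c (D + 1) n0 n1
        + 9 / 10 * ∑ n0 ∈ range N, ∑ n1 ∈ range N, |tri D a b c n0 n1 (n0 ^^^ n1)|
        ≤ 2 * ∑ n0 ∈ range (2 * N), ∑ n1 ∈ range (2 * N), Bd ε a b c D n0 n1 := by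
      simp only [sum_range_double, Finset.mul_sum, ← Finset.sum_add_distrib]
      refine Finset.sum_le_sum fun n0 _ => ?_
      rw [Finset.sum_comm]
      refine Finset.sum_le_sum fun n1 _ => ?_
      have := Bd_step hε a b c D n0 n1
      simpa only [Finset.mul_sum] using this
    rw [sum_range_succ]
    have h4 := mul_le_mul_of_nonneg_left h3 (show (0 : ℝ) ≤ (1 / 2) ^ (D + 1) by positivity)
    have h5 : ∀ x : ℝ, (1 / 2 : ℝ) ^ (D + 1) * (2 * x) = (1 / 2) ^ D * x := fun x => by ring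
    rw [h5] at h4
    nlinarith

lemma Phi_scalar {M : Matrix (Fin (2 ^ 0)) (Fin (2 ^ 0)) ℝ} (h : M.PosDef) {x y η : ℝ}
    (hη : 0 ≤ η) (e : M ⟨0, by norm_num⟩ ⟨0, by norm_num⟩ = x ^ 2 + y ^ 2 + η ^ 2) :
    Phi M ≤ 9 * (|x| ^ 3 + |y| ^ 3 + η ^ 3) := by
  have h1 := rt_sq h
  have h2 := (rt_pd h).diag_pos (i := ⟨0, by norm_num⟩)
  have h3 := congrFun (congrFun h1 ⟨0, by norm_num⟩) ⟨0, by norm_num⟩
  have hu : (Finset.univ : Finset (Fin (2 ^ 0))) = {⟨0, by norm_num⟩} := by decide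
  unfold Phi
  simp only [trace, Matrix.diag, mul_apply, hu, Finset.sum_singleton] at h3 ⊢
  generalize rt M ⟨0, _⟩ ⟨0, _⟩ = r at *
  rw [e, ← sq_abs x, ← sq_abs y] at h3
  have hx := abs_nonneg x
  have hy := abs_nonneg y
  generalize |x| = u at *
  generalize |y| = v at *
  have h4 : r ≤ u + v + η := by
    apply le_of_sq_le_sq _ (by positivity) |>.trans le_rfl
    nlinarith [mul_nonneg hx hy, mul_nonneg hx hη, mul_nonneg hy hη]
  calc r * r * r ≤ (u + v + η) * (u + v + η) * (u + v + η) := by gcongr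
    _ ≤ _ := by
      nlinarith [mul_nonneg (add_nonneg hx hy) (sq_nonneg (u - v)),
        mul_nonneg (add_nonneg hx hη) (sq_nonneg (u - η)),
        mul_nonneg (add_nonneg hy hη) (sq_nonneg (v - η)),
        mul_nonneg hx (sq_nonneg (v - η)), mul_nonneg hy (sq_nonneg (u - η)),
        mul_nonneg hη (sq_nonneg (u - v))]

lemma Bd_zero {η : ℝ} (hη : 0 < η) (a b c : ℕ → ℕ → ℝ) (n0 n1 : ℕ) :
    Bd (η ^ 2) a b c 0 n0 n1
      ≤ 18 * (|a n0 n1| ^ 3 + |b n1 (n0 ^^^ n1)| ^ 3 + |c (n0 ^^^ n1) n0| ^ 3) + 27 * η ^ 3 := by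
  have hu : (Finset.univ : Finset (Fin (2 ^ 0))) = {⟨0, by norm_num⟩} := by decide
  have key : ∀ (p q : ℕ → ℕ → ℝ) (i j l : ℕ),
      Phi (gram (2 ^ 0 * η ^ 2) (block 0 p i j) (block 0 q j l))
        ≤ 9 * (|p i j| ^ 3 + |q j l| ^ 3 + η ^ 3) := by
    intro p q i j l
    refine Phi_scalar (gram_pd (by positivity) _ _) hη.le ?_
    simp [gram, block, mul_apply, pow_two]
  unfold Bd Bel
  linarith [key c a (n0 ^^^ n1) n0 n1, key a b n0 n1 (n0 ^^^ n1), key b c n1 (n0 ^^^ n1) n0]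

lemma sum_xor (K m : ℕ) (hm : m < 2 ^ K) (f : ℕ → ℝ) :
    ∑ n ∈ range (2 ^ K), f (n ^^^ m) = ∑ n ∈ range (2 ^ K), f n := by
  refine Finset.sum_nbij' (fun n => n ^^^ m) (fun n => n ^^^ m) ?_ ?_ ?_ ?_ ?_
  · intro n hn
    exact mem_range.2 (Nat.xor_lt_two_pow (mem_range.1 hn) hm)
  · intro n hn
    exact mem_range.2 (Nat.xor_lt_two_pow (mem_range.1 hn) hm)
  · intro n _
    simp
  · intro n _
    simp
  · intro n _
    rfl

/-- Sum of cubes of the entries of a square part of an array. -/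
noncomputable def cubes (R : ℕ) (a : ℕ → ℕ → ℝ) : ℝ := ∑ x ∈ range R, ∑ y ∈ range R, |a x y| ^ 3

/-- The discrete inequality. -/
theorem discrete (a b c : ℕ → ℕ → ℝ) (D K : ℕ) :
    ∑ d ∈ range D, (1 / 2 : ℝ) ^ (d + 1) *
        ∑ n0 ∈ range (2 ^ K), ∑ n1 ∈ range (2 ^ K), |tri d a b c n0 n1 (n0 ^^^ n1)|
      ≤ 20 * (cubes (2 ^ (D + K)) a + cubes (2 ^ (D + K)) b + cubes (2 ^ (D + K)) c) := by
  set R := 2 ^ (D + K) with hR
  have hb : ∑ n0 ∈ range R, ∑ n1 ∈ range R, |b n1 (n0 ^^^ n1)| ^ 3 = cubes R b := by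
    rw [Finset.sum_comm]
    exact Finset.sum_congr rfl fun n1 h1 =>
      sum_xor (D + K) n1 (mem_range.1 h1) (fun n => |b n1 n| ^ 3)
  have hc : ∑ n0 ∈ range R, ∑ n1 ∈ range R, |c (n0 ^^^ n1) n0| ^ 3 = cubes R c := by
    rw [cubes, Finset.sum_comm (f := fun x y => |c x y| ^ 3)]
    refine Finset.sum_congr rfl fun n0 h0 => ?_
    simp only [Nat.xor_comm n0]
    exact sum_xor (D + K) n0 (mem_range.1 h0) (fun n => |c n n0| ^ 3)
  have main : ∀ η : ℝ, 0 < η → ∑ d ∈ range D, (1 / 2 : ℝ) ^ (d + 1) *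
        ∑ n0 ∈ range (2 ^ K), ∑ n1 ∈ range (2 ^ K), |tri d a b c n0 n1 (n0 ^^^ n1)|
      ≤ 20 * (cubes R a + cubes R b + cubes R c) + 30 * (R : ℝ) ^ 2 * η ^ 3 := by
    intro η hη
    have h1 := telescope (ε := η ^ 2) (by positivity) a b c D (2 ^ K)
    rw [← pow_add, ← hR] at h1
    have h2 : 0 ≤ (1 / 2 : ℝ) ^ D * ∑ n0 ∈ range (2 ^ K), ∑ n1 ∈ range (2 ^ K),
        Bd (η ^ 2) a b c D n0 n1 :=
      mul_nonneg (by positivity) (Finset.sum_nonneg fun _ _ => Finset.sum_nonneg fun _ _ =>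
        Bd_nonneg (by positivity) _ _ _ _ _ _)
    have h3 : ∑ n0 ∈ range R, ∑ n1 ∈ range R, Bd (η ^ 2) a b c 0 n0 n1
        ≤ ∑ n0 ∈ range R, ∑ n1 ∈ range R, (18 * (|a n0 n1| ^ 3 + |b n1 (n0 ^^^ n1)| ^ 3
          + |c (n0 ^^^ n1) n0| ^ 3) + 27 * η ^ 3) :=
      Finset.sum_le_sum fun _ _ => Finset.sum_le_sum fun _ _ => Bd_zero hη _ _ _ _ _
    simp only [Finset.sum_add_distrib, ← Finset.mul_sum, hb, hc, Finset.sum_const, card_range,
      nsmul_eq_mul] at h3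
    change _ ≤ 18 * (cubes R a + cubes R b + cubes R c) + _ at h3
    nlinarith
  have lim : Filter.Tendsto (fun η : ℝ => 20 * (cubes R a + cubes R b + cubes R c)
      + 30 * (R : ℝ) ^ 2 * η ^ 3) (nhdsWithin 0 (Set.Ioi 0))
      (nhds (20 * (cubes R a + cubes R b + cubes R c) + 30 * (R : ℝ) ^ 2 * 0 ^ 3)) :=
    (Continuous.tendsto (by fun_prop) 0).mono_left nhdsWithin_le_nhds
  have := ge_of_tendsto lim (eventually_nhdsWithin_of_forall fun η hη => main η hη)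
  simpa using this

end Vale.Agent.P075
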