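import Vale.Agent.P075.Meas
import Mathlib.Analysis.SpecialFunctions.Pow.Real

open MeasureTheory Finset

namespace Vale.Agent.P075

/-- The integral of the cube of the absolute value over the quadrant. -/
noncomputable def cubeInt (F : ℝ × ℝ → ℝ) : ℝ := ∫ x in quad, |F x| ^ 3

lemma integrable_cube_abs {α : Type*} [MeasurableSpace α] {μ : Measure α} {F : α → ℝ}
    (h : MemLp F 3 μ) : Integrable (fun x => |F x| ^ 3) μ := by
  have := h.integrable_norm_rpow (by norm_num) (by norm_num)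
  simpa using this

lemma cubeInt_eq {F : ℝ × ℝ → ℝ} (h : MemLp F 3 (volume.restrict quad)) :
    cubeInt F = norm3 F ^ 3 := by
  have h0 : 0 ≤ cubeInt F := integral_nonneg fun x => by positivity
  rw [norm3, h.eLpNorm_eq_integral_rpow_norm (by norm_num) (by norm_num),
    ENNReal.toReal_ofReal (Real.rpow_nonneg (integral_nonneg fun x => by positivity) _)]
  have : (∫ a in quad, ‖F a‖ ^ (3 : ENNReal).toReal) = cubeInt F := by
    simp [cubeInt]
  rw [this]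
  have := Real.rpow_inv_natCast_pow h0 (n := 3) (by norm_num)
  simpa using this.symm

lemma memLp_proj {F : ℝ × ℝ → ℝ} (h : MemLp F 3 (volume.restrict quad)) {k : ℤ} {i j : ℕ}
    {μ : Measure (ℝ × ℝ × ℝ)} {π : ℝ × ℝ × ℝ → ℝ × ℝ}
    (hπ : MeasurePreserving π μ (ENNReal.ofReal ((2 : ℝ) ^ k) • sq k i j)) :
    MemLp (fun x => F (π x)) 3 μ :=
  ((h.mono_measure (sq_le k i j)).smul_measure ENNReal.ofReal_ne_top).comp_measurePreserving hπ

lemma integral_proj {F : ℝ × ℝ → ℝ} (h : MemLp F 3 (volume.restrict quad)) {k : ℤ} {i j : ℕ}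
    {μ : Measure (ℝ × ℝ × ℝ)} {π : ℝ × ℝ × ℝ → ℝ × ℝ}
    (hπ : MeasurePreserving π μ (ENNReal.ofReal ((2 : ℝ) ^ k) • sq k i j)) :
    ∫ x, |F (π x)| ^ 3 ∂μ ≤ (2 : ℝ) ^ k * cubeInt F := by
  have h1 := integrable_cube_abs ((h.mono_measure (sq_le k i j)).smul_measure
    (c := ENNReal.ofReal ((2 : ℝ) ^ k)) ENNReal.ofReal_ne_top)
  have h2 := integral_map (μ := μ) hπ.aemeasurable (f := fun y => |F y| ^ 3)
    (by rw [hπ.map_eq]; exact h1.aestronglyMeasurable)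
  rw [← h2, hπ.map_eq, integral_smul_measure, ENNReal.toReal_ofReal (by positivity), smul_eq_mul]
  gcongr
  exact integral_mono_measure (sq_le k i j) (Filter.Eventually.of_forall fun x => by positivity)
    (integrable_cube_abs h)

lemma measurable_haar (k : ℤ) (n : ℕ) : Measurable (haar k n) :=
  (measurable_one.indicator measurableSet_Ico).sub (measurable_one.indicator measurableSet_Ico)

lemma abs_haar_le (k : ℤ) (n : ℕ) (x : ℝ) : |haar k n x| ≤ 1 := by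
  unfold haar Set.indicator
  split_ifs <;> simp

lemma abs_mul3_le (x y z : ℝ) : |x * y * z| ≤ |x| ^ 3 + |y| ^ 3 + |z| ^ 3 := by
  rw [abs_mul, abs_mul]
  have hx := abs_nonneg x
  have hy := abs_nonneg y
  have hz := abs_nonneg z
  generalize |x| = u at *
  generalize |y| = v at *
  generalize |z| = w at *
  nlinarith [mul_nonneg (add_nonneg hx (add_nonneg hy hz))
    (add_nonneg (sq_nonneg (u - v)) (add_nonneg (sq_nonneg (v - w)) (sq_nonneg (w - u)))),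
    mul_nonneg hx (mul_nonneg hy hz)]

lemma integrable_integrand {F₀ F₁ F₂ : ℝ × ℝ → ℝ} (h₀ : MemLp F₀ 3 (volume.restrict quad))
    (h₁ : MemLp F₁ 3 (volume.restrict quad)) (h₂ : MemLp F₂ 3 (volume.restrict quad))
    (k : ℤ) (n : ℕ × ℕ × ℕ) : IntegrableOn (integrand F₀ F₁ F₂ k n) (cube k n) := by
  have m₀ := memLp_proj h₀ (proj01 k n)
  have m₁ := memLp_proj h₁ (proj12 k n)
  have m₂ := memLp_proj h₂ (proj20 k n)
  refine Integrable.mono' (((integrable_cube_abs m₀).add (integrable_cube_abs m₁)).add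
    (integrable_cube_abs m₂)) ?_ (Filter.Eventually.of_forall fun x => ?_)
  · refine ((m₀.1.mul m₁.1).mul m₂.1).mul (Measurable.aestronglyMeasurable ?_)
    exact (((measurable_haar _ _).comp measurable_fst).mul
      ((measurable_haar _ _).comp measurable_snd.fst)).mul
      ((measurable_haar _ _).comp measurable_snd.snd)
  · simp only [integrand, Real.norm_eq_abs, Pi.add_apply]
    rw [abs_mul]
    refine le_trans ?_ (abs_mul3_le _ _ _)
    refine mul_le_of_le_one_right (abs_nonneg _) ?_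
    rw [abs_mul, abs_mul]
    exact mul_le_one₀ (mul_le_one₀ (abs_haar_le _ _ _) (abs_nonneg _) (abs_haar_le _ _ _))
      (abs_nonneg _) (abs_haar_le _ _ _)

lemma haar_shift (k : ℤ) (d n : ℕ) {x : ℕ} (hx : x ∈ range (2 ^ (d + 1))) {t : ℝ}
    (ht : t ∈ dyad k 0) :
    haar (k + (d + 1 : ℕ)) n ((2 : ℝ) ^ k * ((n * 2 ^ (d + 1) + x : ℕ) : ℝ) + t) = hs d x := by
  have hδ : (0 : ℝ) < 2 ^ k := by positivity
  simp only [dyad, Set.mem_Ico, Nat.cast_zero, mul_zero, zero_add, mul_one] at ht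
  obtain ⟨t0, t1⟩ := ht
  have hx' : (x : ℝ) + 1 ≤ 2 * 2 ^ d := by
    have := mem_range.1 hx
    have h2 : x + 1 ≤ 2 * 2 ^ d := by rw [pow_succ'] at this; omega
    exact_mod_cast h2
  have hx0 : (0 : ℝ) ≤ x := Nat.cast_nonneg _
  unfold haar hs
  rw [zpow_add₀ two_ne_zero, zpow_natCast]
  push_cast
  rw [pow_succ']
  generalize (2 : ℝ) ^ k = δ at *
  split_ifs with h
  · have h' : (x : ℝ) + 1 ≤ 2 ^ d := by exact_mod_cast h
    generalize (2 : ℝ) ^ d = P at *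
    rw [Set.indicator_of_mem, Set.indicator_of_notMem]
    · simp
    · simp only [Set.mem_Ico, not_and_or, not_le]
      left
      nlinarith
    · simp only [Set.mem_Ico]
      constructor <;> nlinarith
  · have h' : (2 : ℝ) ^ d ≤ x := by exact_mod_cast not_lt.1 h
    generalize (2 : ℝ) ^ d = P at *
    rw [Set.indicator_of_notMem, Set.indicator_of_mem]
    · simp
    · simp only [Set.mem_Ico]
      constructor <;> nlinarith
    · simp only [Set.mem_Ico, not_and_or, not_lt]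
      right
      nlinarith

/-- Samples of a function on a shifted lattice. -/
noncomputable def samp (k : ℤ) (F : ℝ × ℝ → ℝ) (s t : ℝ) (X Y : ℕ) : ℝ :=
  F ((2 : ℝ) ^ k * X + s, (2 : ℝ) ^ k * Y + t)

lemma integral_eq_tri {F₀ F₁ F₂ : ℝ × ℝ → ℝ} (h₀ : MemLp F₀ 3 (volume.restrict quad))
    (h₁ : MemLp F₁ 3 (volume.restrict quad)) (h₂ : MemLp F₂ 3 (volume.restrict quad))
    (k : ℤ) (d : ℕ) (n : ℕ × ℕ × ℕ) :
    IntegrableOn (fun t : ℝ × ℝ × ℝ => tri d (samp k F₀ t.1 t.2.1) (samp k F₁ t.2.1 t.2.2)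
      (samp k F₂ t.2.2 t.1) n.1 n.2.1 n.2.2) (cube k (0, 0, 0)) ∧
    ∫ x in cube (k + (d + 1 : ℕ)) n, integrand F₀ F₁ F₂ (k + (d + 1 : ℕ)) n x
      = ∫ t in cube k (0, 0, 0), tri d (samp k F₀ t.1 t.2.1) (samp k F₁ t.2.1 t.2.2)
        (samp k F₂ t.2.2 t.1) n.1 n.2.1 n.2.2 := by
  obtain ⟨s1, s2⟩ := sampling (integrable_integrand h₀ h₁ h₂ (k + (d + 1 : ℕ)) n)
  have e : Set.EqOn (fun t => ∑ x ∈ range (2 ^ (d + 1)), ∑ y ∈ range (2 ^ (d + 1)),
      ∑ z ∈ range (2 ^ (d + 1)), integrand F₀ F₁ F₂ (k + (d + 1 : ℕ)) n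
        (shift k (n.1 * 2 ^ (d + 1) + x) (n.2.1 * 2 ^ (d + 1) + y) (n.2.2 * 2 ^ (d + 1) + z) t))
      (fun t : ℝ × ℝ × ℝ => tri d (samp k F₀ t.1 t.2.1) (samp k F₁ t.2.1 t.2.2)
        (samp k F₂ t.2.2 t.1) n.1 n.2.1 n.2.2) (cube k (0, 0, 0)) := by
    intro t ht
    simp only [tri]
    refine Finset.sum_congr rfl fun x hx => Finset.sum_congr rfl fun y hy =>
      Finset.sum_congr rfl fun z hz => ?_
    simp only [integrand, shift, samp]
    rw [haar_shift k d n.1 hx ht.1, haar_shift k d n.2.1 hy ht.2.1, haar_shift k d n.2.2 hz ht.2.2]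
  exact ⟨s1.congr_fun e (measurableSet_cube _ _),
    s2.trans (setIntegral_congr_fun (measurableSet_cube _ _) e)⟩

lemma cubes_bound {k : ℤ} {D : ℕ} {G : ℝ × ℝ × ℝ → ℝ} {N : ℝ} {H : ℝ × ℝ × ℝ → ℝ}
    (hG : IntegrableOn G (cube (k + D) (0, 0, 0)))
    (hN : ∫ x in cube (k + D) (0, 0, 0), G x ≤ (2 : ℝ) ^ (k + D) * N)
    (hH : ∀ t, ∑ x ∈ range (2 ^ D), ∑ y ∈ range (2 ^ D), ∑ z ∈ range (2 ^ D),
      G (shift k x y z t) = 2 ^ D * H t) :
    IntegrableOn H (cube k (0, 0, 0)) ∧ ∫ t in cube k (0, 0, 0), H t ≤ (2 : ℝ) ^ k * N := by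
  obtain ⟨s1, s2⟩ := sampling hG
  simp only [zero_mul, zero_add, hH] at s1 s2
  have hp : (0 : ℝ) < 2 ^ D := by positivity
  constructor
  · have := Integrable.const_mul s1 ((2 : ℝ) ^ D)⁻¹
    simp only [inv_mul_cancel_left₀ hp.ne'] at this
    exact this
  · rw [s2, integral_const_mul, zpow_add₀ two_ne_zero, zpow_natCast, mul_comm ((2 : ℝ) ^ k),
      mul_assoc] at hN
    exact le_of_mul_le_mul_left hN hp

lemma finite_bound {F₀ F₁ F₂ : ℝ × ℝ → ℝ} (h₀ : MemLp F₀ 3 (volume.restrict quad))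
    (h₁ : MemLp F₁ 3 (volume.restrict quad)) (h₂ : MemLp F₂ 3 (volume.restrict quad))
    (k : ℤ) (D K : ℕ) :
    ∑ d ∈ range D, ∑ n0 ∈ range (2 ^ K), ∑ n1 ∈ range (2 ^ K),
      |localForm F₀ F₁ F₂ (k + (d + 1 : ℕ)) (n0, n1, n0 ^^^ n1)|
      ≤ 20 * (cubeInt F₀ + cubeInt F₁ + cubeInt F₂) := by
  obtain ⟨i0, j0⟩ := cubes_bound (k := k) (D := D + K)
    (H := fun t => cubes (2 ^ (D + K)) (samp k F₀ t.1 t.2.1))
    (integrable_cube_abs (memLp_proj h₀ (proj01 _ (0, 0, 0)))) (integral_proj h₀ (proj01 _ (0, 0, 0)))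
    (fun t => by simp [cubes, samp, shift, Finset.mul_sum])
  obtain ⟨i1, j1⟩ := cubes_bound (k := k) (D := D + K)
    (H := fun t => cubes (2 ^ (D + K)) (samp k F₁ t.2.1 t.2.2))
    (integrable_cube_abs (memLp_proj h₁ (proj12 _ (0, 0, 0)))) (integral_proj h₁ (proj12 _ (0, 0, 0)))
    (fun t => by simp [cubes, samp, shift])
  obtain ⟨i2, j2⟩ := cubes_bound (k := k) (D := D + K)
    (H := fun t => cubes (2 ^ (D + K)) (samp k F₂ t.2.2 t.1))
    (integrable_cube_abs (memLp_proj h₂ (proj20 _ (0, 0, 0)))) (integral_proj h₂ (proj20 _ (0, 0, 0)))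
    (fun t => by
      rw [cubes, Finset.sum_comm (f := fun x y => |samp k F₂ t.2.2 t.1 x y| ^ 3)]
      simp [samp, shift, Finset.mul_sum])
  have hδ : (0 : ℝ) < 2 ^ k := by positivity
  set T : ℕ → ℕ → ℕ → ℝ × ℝ × ℝ → ℝ := fun d n0 n1 t => tri d (samp k F₀ t.1 t.2.1)
    (samp k F₁ t.2.1 t.2.2) (samp k F₂ t.2.2 t.1) n0 n1 (n0 ^^^ n1) with hT
  have iT : ∀ d n0 n1, Integrable (fun t => (1 / 2 : ℝ) ^ (d + 1) * |T d n0 n1 t|)
      (volume.restrict (cube k (0, 0, 0))) := fun d n0 n1 =>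
    (Integrable.abs (integral_eq_tri h₀ h₁ h₂ k d (n0, n1, n0 ^^^ n1)).1).const_mul _
  have step1 : ∀ d n0 n1, (2 : ℝ) ^ k * |localForm F₀ F₁ F₂ (k + (d + 1 : ℕ)) (n0, n1, n0 ^^^ n1)|
      ≤ ∫ t in cube k (0, 0, 0), (1 / 2 : ℝ) ^ (d + 1) * |T d n0 n1 t| := by
    intro d n0 n1
    rw [localForm, (integral_eq_tri h₀ h₁ h₂ k d (n0, n1, n0 ^^^ n1)).2, abs_mul,
      abs_of_pos (by positivity), integral_const_mul, ← mul_assoc]
    have : (2 : ℝ) ^ k * 2 ^ (-(k + (d + 1 : ℕ))) = (1 / 2) ^ (d + 1) := by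
      rw [← zpow_add₀ two_ne_zero, one_div, inv_pow, ← zpow_natCast, ← zpow_neg]
      congr 1
      ring
    rw [this]
    gcongr
    exact abs_integral_le_integral_abs
  have step2 : (2 : ℝ) ^ k * ∑ d ∈ range D, ∑ n0 ∈ range (2 ^ K), ∑ n1 ∈ range (2 ^ K),
      |localForm F₀ F₁ F₂ (k + (d + 1 : ℕ)) (n0, n1, n0 ^^^ n1)|
      ≤ ∫ t in cube k (0, 0, 0), ∑ d ∈ range D, ∑ n0 ∈ range (2 ^ K), ∑ n1 ∈ range (2 ^ K),
        (1 / 2 : ℝ) ^ (d + 1) * |T d n0 n1 t| := by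
    rw [integral_finsetSum _ fun d _ => integrable_finsetSum _ fun n0 _ =>
      integrable_finsetSum _ fun n1 _ => iT d n0 n1, Finset.mul_sum]
    refine Finset.sum_le_sum fun d _ => ?_
    rw [integral_finsetSum _ fun n0 _ => integrable_finsetSum _ fun n1 _ => iT d n0 n1,
      Finset.mul_sum]
    refine Finset.sum_le_sum fun n0 _ => ?_
    rw [integral_finsetSum _ fun n1 _ => iT d n0 n1, Finset.mul_sum]
    exact Finset.sum_le_sum fun n1 _ => step1 d n0 n1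
  have step3 : ∫ t in cube k (0, 0, 0), ∑ d ∈ range D, ∑ n0 ∈ range (2 ^ K),
        ∑ n1 ∈ range (2 ^ K), (1 / 2 : ℝ) ^ (d + 1) * |T d n0 n1 t|
      ≤ ∫ t in cube k (0, 0, 0), 20 * (cubes (2 ^ (D + K)) (samp k F₀ t.1 t.2.1)
        + cubes (2 ^ (D + K)) (samp k F₁ t.2.1 t.2.2)
        + cubes (2 ^ (D + K)) (samp k F₂ t.2.2 t.1)) := by
    refine integral_mono (integrable_finsetSum _ fun d _ => integrable_finsetSum _ fun n0 _ =>
      integrable_finsetSum _ fun n1 _ => iT d n0 n1) (((i0.add i1).add i2).const_mul 20)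
      fun t => ?_
    have := discrete (samp k F₀ t.1 t.2.1) (samp k F₁ t.2.1 t.2.2) (samp k F₂ t.2.2 t.1) D K
    simpa only [Finset.mul_sum] using this
  have i01 : Integrable (fun t : ℝ × ℝ × ℝ => cubes (2 ^ (D + K)) (samp k F₀ t.1 t.2.1)
      + cubes (2 ^ (D + K)) (samp k F₁ t.2.1 t.2.2)) (volume.restrict (cube k (0, 0, 0))) :=
    i0.add i1
  rw [integral_const_mul, integral_add i01 i2, integral_add i0 i1] at step3
  refine le_of_mul_le_mul_left ?_ hδ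
  nlinarith

lemma localForm_smul (c₀ c₁ c₂ : ℝ) (F₀ F₁ F₂ : ℝ × ℝ → ℝ) (k : ℤ) (n : ℕ × ℕ × ℕ) :
    localForm (c₀ • F₀) (c₁ • F₁) (c₂ • F₂) k n = c₀ * c₁ * c₂ * localForm F₀ F₁ F₂ k n := by
  have : ∀ x, integrand (c₀ • F₀) (c₁ • F₁) (c₂ • F₂) k n x
      = c₀ * c₁ * c₂ * integrand F₀ F₁ F₂ k n x := fun x => by
    simp only [integrand, Pi.smul_apply, smul_eq_mul]
    ring
  simp only [localForm, this, integral_const_mul]
  ring

lemma cubeInt_smul {c : ℝ} (hc : 0 ≤ c) (F : ℝ × ℝ → ℝ) : cubeInt (c • F) = c ^ 3 * cubeInt F := by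
  simp only [cubeInt, Pi.smul_apply, smul_eq_mul, abs_mul, abs_of_nonneg hc, mul_pow,
    integral_const_mul]

lemma scale_bound {V a b c : ℝ} (ha : 0 ≤ a) (hb : 0 ≤ b) (hc : 0 ≤ c)
    (h : ∀ x y z : ℝ, 0 < x → 0 < y → 0 < z →
      x * y * z * V ≤ 20 * (x ^ 3 * a ^ 3 + y ^ 3 * b ^ 3 + z ^ 3 * c ^ 3)) :
    V ≤ 60 * (a * b * c) := by
  have main : ∀ η : ℝ, 0 < η → V ≤ 60 * ((a + η) * (b + η) * (c + η)) := by
    intro η hη
    have pa : 0 < a + η := by linarith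
    have pb : 0 < b + η := by linarith
    have pc : 0 < c + η := by linarith
    have h1 := h (a + η)⁻¹ (b + η)⁻¹ (c + η)⁻¹ (by positivity) (by positivity) (by positivity)
    have q : ∀ u : ℝ, 0 ≤ u → (u + η)⁻¹ ^ 3 * u ^ 3 ≤ 1 := fun u hu => by
      rw [← mul_pow]
      refine pow_le_one₀ (by positivity) ?_
      rw [inv_mul_le_iff₀ (by linarith)]
      linarith
    have h2 : (a + η)⁻¹ * (b + η)⁻¹ * (c + η)⁻¹ * V ≤ 60 := by
      linarith [q a ha, q b hb, q c hc]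
    rw [← mul_inv, ← mul_inv, inv_mul_le_iff₀ (by positivity)] at h2
    linarith
  have lim : Filter.Tendsto (fun η : ℝ => 60 * ((a + η) * (b + η) * (c + η)))
      (nhdsWithin 0 (Set.Ioi 0)) (nhds (60 * ((a + 0) * (b + 0) * (c + 0)))) :=
    (Continuous.tendsto (by fun_prop) 0).mono_left nhdsWithin_le_nhds
  have := ge_of_tendsto lim (eventually_nhdsWithin_of_forall fun η hη => main η hη)
  simpa using this

lemma finite_bound' {F₀ F₁ F₂ : ℝ × ℝ → ℝ} (h₀ : MemLp F₀ 3 (volume.restrict quad))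
    (h₁ : MemLp F₁ 3 (volume.restrict quad)) (h₂ : MemLp F₂ 3 (volume.restrict quad))
    (k : ℤ) (D K : ℕ) :
    ∑ d ∈ range D, ∑ n0 ∈ range (2 ^ K), ∑ n1 ∈ range (2 ^ K),
      |localForm F₀ F₁ F₂ (k + (d + 1 : ℕ)) (n0, n1, n0 ^^^ n1)|
      ≤ 60 * (norm3 F₀ * norm3 F₁ * norm3 F₂) := by
  refine scale_bound ENNReal.toReal_nonneg ENNReal.toReal_nonneg ENNReal.toReal_nonneg
    fun x y z hx hy hz => ?_
  have := finite_bound (h₀.const_smul x) (h₁.const_smul y) (h₂.const_smul z) k D K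
  rw [cubeInt_smul hx.le, cubeInt_smul hy.le, cubeInt_smul hz.le, cubeInt_eq h₀, cubeInt_eq h₁,
    cubeInt_eq h₂] at this
  simp only [localForm_smul, abs_mul, abs_of_pos hx, abs_of_pos hy, abs_of_pos hz,
    ← Finset.mul_sum] at this
  exact this

lemma third_eq {n : ℕ × ℕ × ℕ} (h : n ∈ triples) : n = (n.1, n.2.1, n.1 ^^^ n.2.1) := by
  have h' : n.1 ^^^ n.2.1 ^^^ n.2.2 = 0 := h
  rw [Nat.xor_eq_zero_iff] at h'
  rw [h']

lemma sum_le_of_injOn {α β : Type*} [DecidableEq β] {s : Finset α} {t : Finset β} {f : α → ℝ}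
    {g : β → ℝ} (e : α → β) (he : Set.InjOn e s) (ht : s.image e ⊆ t)
    (h : ∀ a ∈ s, f a = g (e a)) (hg : ∀ b ∈ t, b ∉ s.image e → 0 ≤ g b) :
    ∑ a ∈ s, f a ≤ ∑ b ∈ t, g b := by
  rw [Finset.sum_congr rfl h, ← Finset.sum_image he]
  exact Finset.sum_le_sum_of_subset_of_nonneg ht hg

lemma finset_bound {F₀ F₁ F₂ : ℝ × ℝ → ℝ} (h₀ : MemLp F₀ 3 (volume.restrict quad))
    (h₁ : MemLp F₁ 3 (volume.restrict quad)) (h₂ : MemLp F₂ 3 (volume.restrict quad))
    (S : Finset ℤ) (s : Finset triples) :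
    ∑ n ∈ s, ∑ k ∈ S, |localForm F₀ F₁ F₂ k n| ≤ 60 * (norm3 F₀ * norm3 F₁ * norm3 F₂) := by
  obtain ⟨B, hB⟩ : ∃ B : ℕ, ∀ k ∈ S, k.natAbs < B :=
    ⟨S.sup Int.natAbs + 1, fun k hk => Nat.lt_succ_of_le (Finset.le_sup (f := Int.natAbs) hk)⟩
  obtain ⟨K, hK⟩ : ∃ K : ℕ, ∀ n ∈ s, n.1.1 < 2 ^ K ∧ n.1.2.1 < 2 ^ K := by
    refine ⟨s.sup fun n => n.1.1 + n.1.2.1, fun n hn => ?_⟩
    have h1 := Finset.le_sup (f := fun n : triples => n.1.1 + n.1.2.1) hn
    have h2 := Nat.lt_two_pow_self (n := s.sup fun n : triples => n.1.1 + n.1.2.1)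
    omega
  refine le_trans ?_ (finite_bound' h₀ h₁ h₂ (-B) (2 * B) K)
  rw [Finset.sum_comm]
  calc ∑ k ∈ S, ∑ n ∈ s, |localForm F₀ F₁ F₂ k n|
      ≤ ∑ k ∈ S, ∑ n0 ∈ range (2 ^ K), ∑ n1 ∈ range (2 ^ K),
          |localForm F₀ F₁ F₂ k (n0, n1, n0 ^^^ n1)| := by
        refine Finset.sum_le_sum fun k _ => ?_
        rw [← Finset.sum_product']
        refine sum_le_of_injOn (fun n : triples => (n.1.1, n.1.2.1)) ?_ ?_ ?_ ?_
        · intro n _ n' _ e
          simp only [Prod.mk.injEq] at e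
          apply Subtype.ext
          rw [third_eq n.2, third_eq n'.2, e.1, e.2]
        · intro p hp
          obtain ⟨n, hn, rfl⟩ := Finset.mem_image.1 hp
          simpa using hK n hn
        · intro n _
          rw [← third_eq n.2]
        · intro p _ _
          exact abs_nonneg _
    _ ≤ _ := by
        refine sum_le_of_injOn (fun k : ℤ => (k + B - 1).toNat) ?_ ?_ ?_ ?_
        · intro k hk k' hk' e
          have := hB k hk
          have := hB k' hk'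
          simp only at e
          omega
        · intro d hd
          obtain ⟨k, hk, rfl⟩ := Finset.mem_image.1 hd
          have := hB k hk
          rw [mem_range]
          omega
        · intro k hk
          have := hB k hk
          have e : -(B : ℤ) + (((k + B - 1).toNat + 1 : ℕ) : ℤ) = k := by omega
          rw [e]
        · intro d _ _
          exact Finset.sum_nonneg fun _ _ => Finset.sum_nonneg fun _ _ => abs_nonneg _

theorem main {F₀ F₁ F₂ : ℝ × ℝ → ℝ} (h₀ : MemLp F₀ 3 (volume.restrict quad))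
    (h₁ : MemLp F₁ 3 (volume.restrict quad)) (h₂ : MemLp F₂ 3 (volume.restrict quad)) :
    (∀ k n, IntegrableOn (integrand F₀ F₁ F₂ k n) (cube k n)) ∧
    (∀ k, Summable fun n : triples => |localForm F₀ F₁ F₂ k n|) ∧
    (∀ S : Finset ℤ, ∑ k ∈ S, ∑' n : triples, |localForm F₀ F₁ F₂ k n|
      ≤ 60 * (norm3 F₀ * norm3 F₁ * norm3 F₂)) ∧
    ∀ (S : Finset ℤ) (ε : ℤ → ℝ), (∀ k ∈ S, |ε k| ≤ 1) →
      |dyadicForm S ε F₀ F₁ F₂| ≤ 60 * (norm3 F₀ * norm3 F₁ * norm3 F₂) := by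
  have hs : ∀ k, Summable fun n : triples => |localForm F₀ F₁ F₂ k n| := fun k =>
    summable_of_sum_le (fun _ => abs_nonneg _) fun s => by
      simpa using finset_bound h₀ h₁ h₂ {k} s
  have hb : ∀ S : Finset ℤ, ∑ k ∈ S, ∑' n : triples, |localForm F₀ F₁ F₂ k n|
      ≤ 60 * (norm3 F₀ * norm3 F₁ * norm3 F₂) := fun S => by
    rw [← Summable.tsum_finsetSum fun k _ => hs k]
    exact (summable_sum fun k _ => hs k).tsum_le_of_sum_le (finset_bound h₀ h₁ h₂ S)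
  refine ⟨integrable_integrand h₀ h₁ h₂, hs, hb, fun S ε hε => le_trans ?_ (hb S)⟩
  refine (Finset.abs_sum_le_sum_abs _ _).trans (Finset.sum_le_sum fun k hk => ?_)
  rw [abs_mul]
  refine (mul_le_of_le_one_left (abs_nonneg _) (hε k hk)).trans ?_
  have := norm_tsum_le_tsum_norm (f := fun n : triples => localForm F₀ F₁ F₂ k n)
    (by simpa using hs k)
  simpa using this

end Vale.Agent.P075
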