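import Vale.Agent.P075.Defs
import Vale.Agent.P075.Disc
import Mathlib.MeasureTheory.Integral.Prod
import Mathlib.MeasureTheory.Measure.WithDensity
import Mathlib.MeasureTheory.Group.Measure

open MeasureTheory Finset

namespace Vale.Agent.P075

lemma measurableSet_dyad (k : ℤ) (n : ℕ) : MeasurableSet (dyad k n) := measurableSet_Ico

lemma measurableSet_cube (k : ℤ) (n : ℕ × ℕ × ℕ) : MeasurableSet (cube k n) :=
  (measurableSet_dyad _ _).prod ((measurableSet_dyad _ _).prod (measurableSet_dyad _ _))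

lemma volume_dyad (k : ℤ) (n : ℕ) : volume (dyad k n) = ENNReal.ofReal ((2 : ℝ) ^ k) := by
  rw [dyad, Real.volume_Ico]
  congr 1
  ring

lemma dyad_subset (k : ℤ) (n : ℕ) : dyad k n ⊆ Set.Ici 0 := fun x hx =>
  le_trans (by positivity) hx.1

lemma restrict_Ico_sum {δ : ℝ} (hδ : 0 < δ) (A M : ℕ) :
    volume.restrict (Set.Ico (δ * (A : ℝ)) (δ * (A + M)))
      = ∑ x ∈ range M, volume.restrict (Set.Ico (δ * ((A + x : ℕ) : ℝ)) (δ * ((A + x : ℕ) + 1))) := by
  induction M with
  | zero => simp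
  | succ M ih =>
    rw [sum_range_succ, ← ih, ← Measure.restrict_union _ measurableSet_Ico]
    · push_cast
      have hM : (0 : ℝ) ≤ M := Nat.cast_nonneg _
      rw [Set.Ico_union_Ico_eq_Ico, add_assoc] <;> nlinarith
    · push_cast
      exact Set.Ico_disjoint_Ico_same

lemma restrict_dyad (k : ℤ) (D n : ℕ) :
    volume.restrict (dyad (k + D) n)
      = ∑ x ∈ range (2 ^ D), volume.restrict (dyad k (n * 2 ^ D + x)) := by
  have := restrict_Ico_sum (δ := (2 : ℝ) ^ k) (by positivity) (n * 2 ^ D) (2 ^ D)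
  unfold dyad
  rw [← this, zpow_add₀ two_ne_zero, zpow_natCast]
  push_cast
  congr 2 <;> ring

lemma shift_dyad (k : ℤ) (X : ℕ) :
    MeasurePreserving (fun t : ℝ => (2 : ℝ) ^ k * X + t) (volume.restrict (dyad k 0))
      (volume.restrict (dyad k X)) := by
  have h := (measurePreserving_add_left volume ((2 : ℝ) ^ k * X)).restrict_preimage
    (measurableSet_dyad k X)
  convert h using 2
  ext t
  simp only [dyad, Set.mem_Ico, Set.mem_preimage, Nat.cast_zero, mul_zero, zero_add, mul_one]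
  constructor <;> rintro ⟨h1, h2⟩ <;> constructor <;> linarith

lemma restrict_cube (k : ℤ) (n : ℕ × ℕ × ℕ) :
    volume.restrict (cube k n) = (volume.restrict (dyad k n.1)).prod
      ((volume.restrict (dyad k n.2.1)).prod (volume.restrict (dyad k n.2.2))) := by
  rw [Measure.prod_restrict, Measure.prod_restrict]
  rfl

lemma finsum_prod {α β ι : Type*} [MeasurableSpace α] [MeasurableSpace β] (s : Finset ι)
    (μ : ι → Measure α) (ν : Measure β) [SFinite ν] :
    (∑ i ∈ s, μ i).prod ν = ∑ i ∈ s, (μ i).prod ν := by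
  rw [← Measure.sum_coe_finset, Measure.prod_sum_left, Measure.sum_coe_finset s fun i => (μ i).prod ν]

lemma prod_finsum {α β ι : Type*} [MeasurableSpace α] [MeasurableSpace β] (s : Finset ι)
    (μ : Measure α) (ν : ι → Measure β) [∀ i, SFinite (ν i)] :
    μ.prod (∑ i ∈ s, ν i) = ∑ i ∈ s, μ.prod (ν i) := by
  rw [← Measure.sum_coe_finset, Measure.prod_sum_right,
    Measure.sum_coe_finset s fun i => μ.prod (ν i)]

lemma restrict_cube_sum (k : ℤ) (D : ℕ) (n : ℕ × ℕ × ℕ) :
    volume.restrict (cube (k + D) n)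
      = ∑ x ∈ range (2 ^ D), ∑ y ∈ range (2 ^ D), ∑ z ∈ range (2 ^ D),
        volume.restrict (cube k (n.1 * 2 ^ D + x, n.2.1 * 2 ^ D + y, n.2.2 * 2 ^ D + z)) := by
  simp only [restrict_cube]
  rw [restrict_dyad k D n.1, finsum_prod]
  refine Finset.sum_congr rfl fun x _ => ?_
  have : (volume.restrict (dyad (k + D) n.2.1)).prod (volume.restrict (dyad (k + D) n.2.2))
      = ∑ p ∈ range (2 ^ D) ×ˢ range (2 ^ D), (volume.restrict (dyad k (n.2.1 * 2 ^ D + p.1))).prod
        (volume.restrict (dyad k (n.2.2 * 2 ^ D + p.2))) := by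
    rw [Finset.sum_product, restrict_dyad k D n.2.1, finsum_prod]
    refine Finset.sum_congr rfl fun y _ => ?_
    rw [restrict_dyad k D n.2.2, prod_finsum]
  rw [this, prod_finsum, Finset.sum_product]

/-- Translation of the basic cube. -/
noncomputable def shift (k : ℤ) (X Y Z : ℕ) (t : ℝ × ℝ × ℝ) : ℝ × ℝ × ℝ :=
  ((2 : ℝ) ^ k * X + t.1, (2 : ℝ) ^ k * Y + t.2.1, (2 : ℝ) ^ k * Z + t.2.2)

lemma shift_cube (k : ℤ) (X Y Z : ℕ) :
    MeasurePreserving (shift k X Y Z) (volume.restrict (cube k (0, 0, 0)))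
      (volume.restrict (cube k (X, Y, Z))) := by
  simp only [restrict_cube]
  exact (shift_dyad k X).prod ((shift_dyad k Y).prod (shift_dyad k Z))

lemma integrable_shift {k : ℤ} {D : ℕ} {n : ℕ × ℕ × ℕ} {G : ℝ × ℝ × ℝ → ℝ}
    (hG : IntegrableOn G (cube (k + D) n)) {x y z : ℕ} (hx : x ∈ range (2 ^ D))
    (hy : y ∈ range (2 ^ D)) (hz : z ∈ range (2 ^ D)) :
    IntegrableOn G (cube k (n.1 * 2 ^ D + x, n.2.1 * 2 ^ D + y, n.2.2 * 2 ^ D + z)) := by
  unfold IntegrableOn at *
  rw [restrict_cube_sum, integrable_finsetSum_measure] at hG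
  have h1 := hG x hx
  rw [integrable_finsetSum_measure] at h1
  have h2 := h1 y hy
  rw [integrable_finsetSum_measure] at h2
  exact h2 z hz

lemma sampling {k : ℤ} {D : ℕ} {n : ℕ × ℕ × ℕ} {G : ℝ × ℝ × ℝ → ℝ}
    (hG : IntegrableOn G (cube (k + D) n)) :
    IntegrableOn (fun t => ∑ x ∈ range (2 ^ D), ∑ y ∈ range (2 ^ D), ∑ z ∈ range (2 ^ D),
        G (shift k (n.1 * 2 ^ D + x) (n.2.1 * 2 ^ D + y) (n.2.2 * 2 ^ D + z) t)) (cube k (0, 0, 0))
    ∧ ∫ x in cube (k + D) n, G x
      = ∫ t in cube k (0, 0, 0), ∑ x ∈ range (2 ^ D), ∑ y ∈ range (2 ^ D), ∑ z ∈ range (2 ^ D),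
        G (shift k (n.1 * 2 ^ D + x) (n.2.1 * 2 ^ D + y) (n.2.2 * 2 ^ D + z) t) := by
  have hI : ∀ x ∈ range (2 ^ D), ∀ y ∈ range (2 ^ D), ∀ z ∈ range (2 ^ D),
      Integrable (fun t => G (shift k (n.1 * 2 ^ D + x) (n.2.1 * 2 ^ D + y) (n.2.2 * 2 ^ D + z) t))
        (volume.restrict (cube k (0, 0, 0))) := fun x hx y hy z hz =>
    (shift_cube k _ _ _).integrable_comp_of_integrable (integrable_shift hG hx hy hz)
  refine ⟨integrable_finsetSum _ fun x hx => integrable_finsetSum _ fun y hy =>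
    integrable_finsetSum _ fun z hz => hI x hx y hy z hz, ?_⟩
  rw [restrict_cube_sum, integral_finsetSum_measure fun x hx => integrable_finsetSum_measure.2
    fun y hy => integrable_finsetSum_measure.2 fun z hz => integrable_shift hG hx hy hz,
    integral_finsetSum _ fun x hx => integrable_finsetSum _ fun y hy =>
      integrable_finsetSum _ fun z hz => hI x hx y hy z hz]
  refine Finset.sum_congr rfl fun x hx => ?_
  rw [integral_finsetSum_measure fun y hy => integrable_finsetSum_measure.2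
    fun z hz => integrable_shift hG hx hy hz,
    integral_finsetSum _ fun y hy => integrable_finsetSum _ fun z hz => hI x hx y hy z hz]
  refine Finset.sum_congr rfl fun y hy => ?_
  rw [integral_finsetSum_measure fun z hz => integrable_shift hG hx hy hz,
    integral_finsetSum _ fun z hz => hI x hx y hy z hz]
  refine Finset.sum_congr rfl fun z hz => ?_
  have hmp := shift_cube k (n.1 * 2 ^ D + x) (n.2.1 * 2 ^ D + y) (n.2.2 * 2 ^ D + z)
  rw [← hmp.map_eq, integral_map hmp.aemeasurable]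
  rw [hmp.map_eq]
  exact (integrable_shift hG hx hy hz).aestronglyMeasurable

/-- Lebesgue measure on a dyadic square. -/
noncomputable def sq (k : ℤ) (i j : ℕ) : Measure (ℝ × ℝ) :=
  (volume.restrict (dyad k i)).prod (volume.restrict (dyad k j))

lemma sq_le (k : ℤ) (i j : ℕ) : sq k i j ≤ volume.restrict quad := by
  rw [sq, Measure.prod_restrict]
  exact Measure.restrict_mono_set _ (Set.prod_mono (dyad_subset _ _) (dyad_subset _ _))

lemma proj01 (k : ℤ) (n : ℕ × ℕ × ℕ) :
    MeasurePreserving (fun x : ℝ × ℝ × ℝ => (x.1, x.2.1)) (volume.restrict (cube k n))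
      (ENNReal.ofReal ((2 : ℝ) ^ k) • sq k n.1 n.2.1) := by
  refine ⟨by fun_prop, ?_⟩
  rw [restrict_cube]
  have := Measure.map_prod_map (volume.restrict (dyad k n.1))
    ((volume.restrict (dyad k n.2.1)).prod (volume.restrict (dyad k n.2.2))) measurable_id
    measurable_fst
  rw [Measure.map_id, Measure.map_fst_prod, Measure.restrict_apply_univ, volume_dyad,
    Measure.prod_smul_right] at this
  exact this.symm

lemma proj12 (k : ℤ) (n : ℕ × ℕ × ℕ) :
    MeasurePreserving (fun x : ℝ × ℝ × ℝ => (x.2.1, x.2.2)) (volume.restrict (cube k n))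
      (ENNReal.ofReal ((2 : ℝ) ^ k) • sq k n.2.1 n.2.2) := by
  refine ⟨by fun_prop, ?_⟩
  rw [restrict_cube]
  have := Measure.map_snd_prod (μ := volume.restrict (dyad k n.1))
    (ν := (volume.restrict (dyad k n.2.1)).prod (volume.restrict (dyad k n.2.2)))
  rw [Measure.restrict_apply_univ, volume_dyad] at this
  exact this

lemma proj20 (k : ℤ) (n : ℕ × ℕ × ℕ) :
    MeasurePreserving (fun x : ℝ × ℝ × ℝ => (x.2.2, x.1)) (volume.restrict (cube k n))
      (ENNReal.ofReal ((2 : ℝ) ^ k) • sq k n.2.2 n.1) := by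
  refine ⟨by fun_prop, ?_⟩
  rw [restrict_cube]
  have := Measure.map_prod_map (volume.restrict (dyad k n.1))
    ((volume.restrict (dyad k n.2.1)).prod (volume.restrict (dyad k n.2.2))) measurable_id
    measurable_snd
  rw [Measure.map_id, Measure.map_snd_prod, Measure.restrict_apply_univ, volume_dyad,
    Measure.prod_smul_right] at this
  have h2 : (fun x : ℝ × ℝ × ℝ => (x.2.2, x.1)) = Prod.swap ∘ Prod.map id Prod.snd := rfl
  rw [h2, ← Measure.map_map measurable_swap (measurable_id.prodMap measurable_snd), ← this,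
    Measure.map_smul, Measure.prod_swap]
  rfl

end Vale.Agent.P075
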