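import Vale.Agent.P075.Tri

open Matrix

namespace Vale.Agent.P075

variable {n k : Type*} [Fintype n] [DecidableEq n] [Fintype k] [DecidableEq k]

open Classical in
/-- A positive definite square root. -/
noncomputable def rt (M : Matrix n n ℝ) : Matrix n n ℝ :=
  if h : M.PosDef then Classical.choose (exists_sqrt h) else 0

lemma rt_pd {M : Matrix n n ℝ} (h : M.PosDef) : (rt M).PosDef := by
  rw [rt, dif_pos h]
  exact (Classical.choose_spec (exists_sqrt h)).1

lemma rt_sq {M : Matrix n n ℝ} (h : M.PosDef) : rt M * rt M = M := by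
  rw [rt, dif_pos h]
  exact (Classical.choose_spec (exists_sqrt h)).2

/-- The trace of the power 3/2. -/
noncomputable def Phi (M : Matrix n n ℝ) : ℝ := (rt M * rt M * rt M).trace

lemma Phi_nonneg {M : Matrix n n ℝ} (h : M.PosDef) : 0 ≤ Phi M := by
  unfold Phi
  rw [rt_sq h]
  exact trace_mul_nonneg h.posSemidef (rt_pd h).posSemidef

lemma Phi_conv {N0 N1 : Matrix n n ℝ} (h0 : N0.PosDef) (h1 : N1.PosDef) {l : ℝ} (hl : 0 < l)
    (hl2 : l * l = 1 / 2) : l * Phi (N0 + N1) ≤ Phi N0 + Phi N1 := by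
  have h := h0.add h1
  have hT : (l • rt (N0 + N1)).PosSemidef := (rt_pd h).posSemidef.smul hl.le
  have y0 := young hT (rt_pd h0).posSemidef
  have y1 := young hT (rt_pd h1).posSemidef
  have e : (rt (N0 + N1) * N0).trace + (rt (N0 + N1) * N1).trace = Phi (N0 + N1) := by
    rw [← trace_add, ← Matrix.mul_add, Phi, Matrix.mul_assoc, rt_sq h]
  rw [rt_sq h0] at y0
  rw [rt_sq h1] at y1
  simp only [Matrix.smul_mul, Matrix.mul_smul, trace_smul, smul_eq_mul] at y0 y1
  have e0 : (N0 * rt N0).trace = Phi N0 := by rw [Phi, rt_sq h0]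
  have e1 : (N1 * rt N1).trace = Phi N1 := by rw [Phi, rt_sq h1]
  rw [e0] at y0
  rw [e1] at y1
  change _ ≤ l * (l * (l * Phi (N0 + N1))) + _ at y0 y1
  have e3 : l * (l * (l * Phi (N0 + N1))) = l * Phi (N0 + N1) / 2 := by
    rw [← mul_assoc, hl2]; ring
  rw [e3] at y0 y1
  have e4 : l * (rt (N0 + N1) * N0).trace + l * (rt (N0 + N1) * N1).trace = l * Phi (N0 + N1) := by
    rw [← e]; ring
  linarith

lemma exists_good {σ m : Matrix n n ℝ} (hm : m.PosDef) (hs : σᵀ = σ) (h1 : (1 - σ).PosSemidef)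
    (h2 : (1 + σ).PosSemidef) : ∃ S, Good σ m S := by
  have ms := symm_of_psd hm.posSemidef
  obtain ⟨S, hS, hl⟩ := exists_lyap (Y := m * σ * m) hm (by
    simp only [transpose_mul, ms, hs, Matrix.mul_assoc])
  have k0 : (m * m).PosSemidef := by
    have := psd_tmul m
    rwa [ms] at this
  refine ⟨S, hm, hS, hl, lyap_pos hm (by rw [transpose_sub, ms, hS]) ?_,
    lyap_pos hm (by rw [transpose_add, ms, hS]) ?_⟩
  · have k1 := psd_conj h1 m
    rw [ms] at k1
    have : m * (m - S) + (m - S) * m = m * m + m * (1 - σ) * m := by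
      simp only [Matrix.mul_sub, Matrix.sub_mul, Matrix.mul_one, ← hl]
      abel
    rw [this]
    exact k0.add k1
  · have k1 := psd_conj h2 m
    rw [ms] at k1
    have : m * (m + S) + (m + S) * m = m * m + m * (1 + σ) * m := by
      simp only [Matrix.mul_add, Matrix.add_mul, Matrix.mul_one, ← hl]
      abel
    rw [this]
    exact k0.add k1

lemma gain_core {σ m S : Matrix n n ℝ} (G : Good σ m S) {C0 C1 : Matrix n k ℝ}
    {M0 M1 : Matrix k k ℝ} (h0 : M0.PosDef) (h1 : M1.PosDef) (e0 : C0ᵀ * C0 = M0)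
    (e1 : C1ᵀ * C1 = M1) (f0 : C0 * C0ᵀ + C1 * C1ᵀ = m * m)
    (f1 : C0 * C0ᵀ - C1 * C1ᵀ = m * σ * m) {l : ℝ} (hl : 0 < l) (hl2 : l * l = 1 / 2) :
    (m * m * m).trace + 3 / 2 * (m * S * S).trace ≤ 2 * (l * Phi M0 + l * Phi M1) := by
  have y0 := young_rect (C := C0) (G.add.smul hl.le) (rt_pd h0) (by rw [e0, rt_sq h0])
  have y1 := young_rect (C := C1) (G.sub.smul hl.le) (rt_pd h1) (by rw [e1, rt_sq h1])
  change _ ≤ _ + 2 * Phi M0 at y0
  change _ ≤ _ + 2 * Phi M1 at y1
  simp only [Matrix.smul_mul, Matrix.mul_smul, trace_smul, smul_eq_mul] at y0 y1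
  have g0 : ((m + S) * (C0 * C0ᵀ)).trace + ((m - S) * (C1 * C1ᵀ)).trace
      = (m * m * m).trace + 2 * (m * S * S).trace := by
    have : (m + S) * (C0 * C0ᵀ) + (m - S) * (C1 * C1ᵀ)
        = m * (C0 * C0ᵀ + C1 * C1ᵀ) + S * (C0 * C0ᵀ - C1 * C1ᵀ) := by
      simp only [Matrix.mul_add, Matrix.add_mul, Matrix.mul_sub, Matrix.sub_mul]
      abel
    rw [← trace_add, this, f0, f1, ← G.lyap]
    have e2 : (S * (m * S)).trace = (m * (S * S)).trace := by
      rw [trace_mul_comm S, Matrix.mul_assoc]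
    have e3 : (S * (S * m)).trace = (m * (S * S)).trace := by
      rw [trace_mul_comm m, Matrix.mul_assoc]
    simp only [Matrix.mul_add, trace_add, Matrix.mul_assoc]
    linarith
  have g1 : ((m + S) * (m + S) * (m + S)).trace + ((m - S) * (m - S) * (m - S)).trace
      = 2 * (m * m * m).trace + 6 * (m * S * S).trace := by
    have e2 : (S * (m * S)).trace = (m * (S * S)).trace := by
      rw [trace_mul_comm S, Matrix.mul_assoc]
    have e3 : (S * (S * m)).trace = (m * (S * S)).trace := by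
      rw [trace_mul_comm m, Matrix.mul_assoc]
    simp only [Matrix.mul_add, Matrix.add_mul, Matrix.mul_sub, Matrix.sub_mul, trace_add,
      trace_sub, Matrix.mul_assoc]
    linarith
  generalize ((m + S) * (C0 * C0ᵀ)).trace = A0 at *
  generalize ((m - S) * (C1 * C1ᵀ)).trace = A1 at *
  generalize ((m + S) * (m + S) * (m + S)).trace = B0 at *
  generalize ((m - S) * (m - S) * (m - S)).trace = B1 at *
  have z0 := mul_le_mul_of_nonneg_left y0 hl.le
  have z1 := mul_le_mul_of_nonneg_left y1 hl.le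
  have r1 : ∀ x : ℝ, l * (3 * (l * x)) = 3 / 2 * x := fun x => by
    calc _ = 3 * (l * l) * x := by ring
      _ = _ := by rw [hl2]; ring
  have r2 : ∀ x y : ℝ, l * (l * (l * (l * x)) + 2 * y) = x / 4 + 2 * (l * y) := fun x y => by
    calc _ = (l * l) * (l * l) * x + 2 * (l * y) := by ring
      _ = _ := by rw [hl2]; ring
  rw [r1, r2] at z0 z1
  linarith

/-- The sign of a half. -/
def sg (j : Fin 2) : ℝ := if j = 0 then 1 else -1

/-- The diagonal sign matrix of a splitting into two halves. -/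
def sgn (e : Fin 2 × k ≃ n) : Matrix n n ℝ := diagonal fun x => sg (e.symm x).1

/-- A block of a matrix with respect to a splitting into two halves. -/
def blk (e : Fin 2 × k ≃ n) (a : Matrix n n ℝ) (i j : Fin 2) : Matrix k k ℝ :=
  a.submatrix (fun x => e (i, x)) (fun y => e (j, y))

omit [DecidableEq n] [DecidableEq k] in
lemma sum_split (e : Fin 2 × k ≃ n) (f : n → ℝ) :
    ∑ x, f x = ∑ y, f (e (0, y)) + ∑ y, f (e (1, y)) := by
  rw [← e.sum_comp, Fintype.sum_prod_type, Fin.sum_univ_two]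

/-- The Gram matrix of a pair. -/
noncomputable def gram (ε : ℝ) (a b : Matrix n n ℝ) : Matrix n n ℝ :=
  aᵀ * a + b * bᵀ + ε • (1 : Matrix n n ℝ)

lemma gram_pd {ε : ℝ} (hε : 0 < ε) (a b : Matrix n n ℝ) : (gram ε a b).PosDef :=
  PosDef.posSemidef_add ((psd_tmul a).add (psd_mult b)) (PosDef.one.smul hε)

lemma gram_left {ε : ℝ} (hε : 0 < ε) (a b : Matrix n n ℝ) :
    (rt (gram ε a b) * rt (gram ε a b) - aᵀ * a).PosSemidef := by
  rw [rt_sq (gram_pd hε a b)]
  have : gram ε a b - aᵀ * a = b * bᵀ + ε • (1 : Matrix n n ℝ) := by unfold gram; abel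
  rw [this]
  exact (psd_mult b).add (PosSemidef.one.smul hε.le)

lemma gram_right {ε : ℝ} (hε : 0 < ε) (a b : Matrix n n ℝ) :
    (rt (gram ε a b) * rt (gram ε a b) - b * bᵀ).PosSemidef := by
  rw [rt_sq (gram_pd hε a b)]
  have : gram ε a b - b * bᵀ = aᵀ * a + ε • (1 : Matrix n n ℝ) := by unfold gram; abel
  rw [this]
  exact (psd_tmul a).add (PosSemidef.one.smul hε.le)

lemma gram_blk (e : Fin 2 × k ≃ n) (ε : ℝ) (a b : Matrix n n ℝ) (j : Fin 2) :
    gram ε (blk e a 0 j) (blk e b j j) + gram ε (blk e a 1 j) (blk e b j (1 + j))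
      = (gram (2 * ε) a b).submatrix (fun y => e (j, y)) (fun y => e (j, y)) := by
  ext y y'
  simp only [gram, blk, Matrix.add_apply, submatrix_apply, mul_apply, transpose_apply,
    Matrix.smul_apply, one_apply, smul_eq_mul, EmbeddingLike.apply_eq_iff_eq, Prod.mk.injEq,
    true_and]
  rw [sum_split e, sum_split e (fun x => b (e (j, y)) x * b (e (j, y')) x)]
  fin_cases j <;> simp <;> split_ifs <;> ring

omit [Fintype n] [Fintype k] [DecidableEq k] in
lemma sgn_symm (e : Fin 2 × k ≃ n) : (sgn e)ᵀ = sgn e := by simp [sgn]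

lemma sg_sq (j : Fin 2) : sg j * sg j = 1 := by unfold sg; split_ifs <;> norm_num

omit [Fintype k] [DecidableEq k] in
lemma sgn_contr (e : Fin 2 × k ≃ n) : Contr (sgn e) := by
  apply contr_of_orth
  rw [sgn_symm, sgn, diagonal_mul_diagonal]
  simp [sg_sq]

omit [Fintype n] [Fintype k] [DecidableEq k] in
lemma one_sub_sgn (e : Fin 2 × k ≃ n) : (1 - sgn e).PosSemidef := by
  rw [sgn, ← diagonal_one, diagonal_sub, posSemidef_diagonal_iff]
  intro i
  unfold sg
  split_ifs <;> norm_num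

omit [Fintype n] [Fintype k] [DecidableEq k] in
lemma one_add_sgn (e : Fin 2 × k ≃ n) : (1 + sgn e).PosSemidef := by
  rw [sgn, ← diagonal_one, diagonal_add, posSemidef_diagonal_iff]
  intro i
  unfold sg
  split_ifs <;> norm_num

lemma gain_pair (e : Fin 2 × k ≃ n) {ε : ℝ} (hε : 0 < ε) (a b : Matrix n n ℝ) :
    ∃ S, Good (sgn e) (rt (gram (2 * ε) a b)) S ∧
      Phi (gram (2 * ε) a b) + 3 / 2 * (rt (gram (2 * ε) a b) * S * S).trace
        ≤ 2 * (Phi (gram ε (blk e a 0 0) (blk e b 0 0)) + Phi (gram ε (blk e a 1 0) (blk e b 0 1))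
          + Phi (gram ε (blk e a 0 1) (blk e b 1 1)) + Phi (gram ε (blk e a 1 1) (blk e b 1 0))) := by
  have hM := gram_pd (ε := 2 * ε) (by linarith) a b
  obtain ⟨S, G⟩ := exists_good (rt_pd hM) (sgn_symm e) (one_sub_sgn e) (one_add_sgn e)
  refine ⟨S, G, ?_⟩
  obtain ⟨l, hl, hl2⟩ : ∃ l : ℝ, 0 < l ∧ l * l = 1 / 2 :=
    ⟨√(1 / 2), Real.sqrt_pos.2 (by norm_num), Real.mul_self_sqrt (by norm_num)⟩
  set m := rt (gram (2 * ε) a b) with hm
  have ms : mᵀ = m := symm_of_psd (rt_pd hM).posSemidef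
  have ms' : ∀ x y, m x y = m y x := fun x y => by
    have := congrFun (congrFun ms y) x
    simpa using this
  have hC : ∀ j : Fin 2, (m.submatrix id (fun y => e (j, y)))ᵀ * m.submatrix id (fun y => e (j, y))
      = gram ε (blk e a 0 j) (blk e b j j) + gram ε (blk e a 1 j) (blk e b j (1 + j)) := by
    intro j
    rw [gram_blk, ← rt_sq hM, ← hm]
    ext y y'
    simp only [mul_apply, transpose_apply, submatrix_apply, id]
    exact Finset.sum_congr rfl fun x _ => by rw [ms' x]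
  have c0 := Phi_conv (gram_pd hε (blk e a 0 0) (blk e b 0 0))
    (gram_pd hε (blk e a 1 0) (blk e b 0 (1 + 0))) hl hl2
  have c1 := Phi_conv (gram_pd hε (blk e a 0 1) (blk e b 1 1))
    (gram_pd hε (blk e a 1 1) (blk e b 1 (1 + 1))) hl hl2
  have g := gain_core G ((gram_pd hε _ _).add (gram_pd hε _ _))
    ((gram_pd hε _ _).add (gram_pd hε _ _)) (hC 0) (hC 1) (by
      ext x x'
      simp only [Matrix.add_apply, mul_apply, transpose_apply, submatrix_apply, id]
      rw [sum_split e (fun y => m x y * m y x')]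
      simp only [ms' x']) (by
      ext x x'
      rw [sgn]
      simp only [Matrix.sub_apply, mul_apply (M := m * _), mul_diagonal]
      simp only [mul_apply, transpose_apply, submatrix_apply, id]
      rw [sum_split e (fun y => m x y * sg (e.symm y).1 * m y x')]
      simp [sg, ms' x', sub_eq_add_neg]) hl hl2
  have z0 : (1 + 0 : Fin 2) = 1 := rfl
  have z1 : (1 + 1 : Fin 2) = 0 := rfl
  rw [z0] at c0 g
  rw [z1] at c1 g
  change Phi (gram (2 * ε) a b) + _ ≤ _ at g
  linarith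

/-- The Bellman function. -/
noncomputable def Bel (ε : ℝ) (a b c : Matrix n n ℝ) : ℝ :=
  Phi (gram ε c a) + Phi (gram ε a b) + Phi (gram ε b c)

lemma Bel_nonneg {ε : ℝ} (hε : 0 < ε) (a b c : Matrix n n ℝ) : 0 ≤ Bel ε a b c :=
  add_nonneg (add_nonneg (Phi_nonneg (gram_pd hε _ _)) (Phi_nonneg (gram_pd hε _ _)))
    (Phi_nonneg (gram_pd hε _ _))

/-- The one step Bellman inequality. -/
theorem one_step (e : Fin 2 × k ≃ n) {ε : ℝ} (hε : 0 < ε) (a b c : Matrix n n ℝ) :
    Bel (2 * ε) a b c + 9 / 10 * |(sgn e * a * sgn e * b * sgn e * c).trace|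
      ≤ 2 * ∑ i : Fin 2, ∑ j : Fin 2,
        Bel ε (blk e a i j) (blk e b j (i + j)) (blk e c (i + j) i) := by
  obtain ⟨S0, G0, g0⟩ := gain_pair e hε c a
  obtain ⟨S1, G1, g1⟩ := gain_pair e hε a b
  obtain ⟨S2, G2, g2⟩ := gain_pair e hε b c
  have h2 : 0 < 2 * ε := by linarith
  have t := trilinear (sgn_contr e) G0 G1 G2 (gram_right h2 c a) (gram_left h2 a b)
    (gram_right h2 a b) (gram_left h2 b c) (gram_right h2 b c) (gram_left h2 c a)
  have z1 : (1 + 1 : Fin 2) = 0 := rfl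
  simp only [Fin.sum_univ_two, Bel, add_zero, zero_add, z1]
  linarith

end Vale.Agent.P075
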