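import Vale.Agent.P075.Mat

open Matrix

namespace Vale.Agent.P075

variable {n k : Type*} [Fintype n] [DecidableEq n] [Fintype k] [DecidableEq k]

/-- `U` is a contraction for the Euclidean norm. -/
def Contr (U : Matrix n n ℝ) : Prop := (1 - Uᵀ * U).PosSemidef

lemma Contr.transpose {U : Matrix n n ℝ} (h : Contr U) : Contr Uᵀ := by
  unfold Contr at *
  rw [transpose_transpose]
  have hs : (1 - U * Uᵀ)ᵀ = 1 - U * Uᵀ := by simp [transpose_sub, transpose_mul]
  have h1 : ((1 - U * Uᵀ) * (1 - U * Uᵀ)).PosSemidef := by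
    have := psd_tmul (1 - U * Uᵀ)
    rwa [hs] at this
  have h2 := psd_conj' h U
  have : 1 - U * Uᵀ = (1 - U * Uᵀ) * (1 - U * Uᵀ) + U * (1 - Uᵀ * U) * Uᵀ := by
    simp only [Matrix.mul_sub, Matrix.sub_mul, Matrix.mul_one, Matrix.one_mul, Matrix.mul_assoc]
    abel
  rw [this]
  exact h1.add h2

lemma Contr.mul {U W : Matrix n n ℝ} (hU : Contr U) (hW : Contr W) : Contr (U * W) := by
  unfold Contr at *
  have : 1 - (U * W)ᵀ * (U * W) = (1 - Wᵀ * W) + Wᵀ * (1 - Uᵀ * U) * W := by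
    simp only [transpose_mul, Matrix.mul_sub, Matrix.sub_mul, Matrix.mul_one, Matrix.mul_assoc]
    abel
  rw [this]
  exact hW.add (psd_conj hU W)

lemma contr_of_orth {V : Matrix n n ℝ} (h : Vᵀ * V = 1) : Contr V := by
  unfold Contr
  rw [h, sub_self]
  exact PosSemidef.zero

lemma Contr.col {U : Matrix n n ℝ} (h : Contr U) (j : n) : ∑ i, U i j ^ 2 ≤ 1 := by
  have := PosSemidef.diag_nonneg h (i := j)
  simp only [Matrix.sub_apply, one_apply_eq, mul_apply, transpose_apply] at this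
  simp only [pow_two]
  linarith

lemma Contr.row {U : Matrix n n ℝ} (h : Contr U) (i : n) : ∑ j, U i j ^ 2 ≤ 1 :=
  h.transpose.col i

lemma Contr.bilin {U : Matrix n n ℝ} (h : Contr U) (x y : n → ℝ) :
    2 * |y ⬝ᵥ U *ᵥ x| ≤ x ⬝ᵥ x + y ⬝ᵥ y := by
  have h1 := h.dotProduct_mulVec_nonneg x
  have h2 : x ⬝ᵥ (Uᵀ * U) *ᵥ x = (U *ᵥ x) ⬝ᵥ (U *ᵥ x) := by
    rw [← mulVec_mulVec, dotProduct_mulVec, vecMul_transpose]
  simp only [star_trivial, sub_mulVec, one_mulVec, dotProduct_sub, h2] at h1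
  set z := U *ᵥ x
  have h3 : 0 ≤ (y - z) ⬝ᵥ (y - z) := Finset.sum_nonneg fun i _ => mul_self_nonneg _
  have h4 : 0 ≤ (y + z) ⬝ᵥ (y + z) := Finset.sum_nonneg fun i _ => mul_self_nonneg _
  simp only [sub_dotProduct, dotProduct_sub, add_dotProduct, dotProduct_add,
    dotProduct_comm z y] at h3 h4
  rcases abs_cases (y ⬝ᵥ z) with h5 | h5 <;> linarith [h5.1]

lemma amgm3 (t d : ℝ) : 3 * (|t| * d ^ 2) ≤ |t| ^ 3 + 2 * |d| ^ 3 := by
  have h1 := abs_nonneg t
  have h2 := abs_nonneg d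
  rw [← sq_abs d]
  nlinarith [mul_nonneg (sq_nonneg (|t| - |d|)) (add_nonneg h1 (add_nonneg h2 h2))]

lemma weighted_sum {U : Matrix n n ℝ} (h : Contr U) (s t : n → ℝ) :
    3 * ∑ j, |t j| * ∑ i, (s i * U i j) ^ 2 ≤ ∑ j, |t j| ^ 3 + 2 * ∑ i, |s i| ^ 3 := by
  calc 3 * ∑ j, |t j| * ∑ i, (s i * U i j) ^ 2
      = ∑ j, ∑ i, U i j ^ 2 * (3 * (|t j| * s i ^ 2)) := by
        simp only [Finset.mul_sum]
        refine Finset.sum_congr rfl fun j _ => Finset.sum_congr rfl fun i _ => by ring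
    _ ≤ ∑ j, ∑ i, U i j ^ 2 * (|t j| ^ 3 + 2 * |s i| ^ 3) := by
        gcongr with j _ i _
        exact amgm3 _ _
    _ = ∑ j, (∑ i, U i j ^ 2) * |t j| ^ 3 + 2 * ∑ i, (∑ j, U i j ^ 2) * |s i| ^ 3 := by
        simp only [mul_add, Finset.sum_add_distrib, Finset.sum_mul, Finset.mul_sum]
        congr 1
        rw [Finset.sum_comm]
        refine Finset.sum_congr rfl fun j _ => Finset.sum_congr rfl fun i _ => by ring
    _ ≤ ∑ j, 1 * |t j| ^ 3 + 2 * ∑ i, 1 * |s i| ^ 3 := by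
        gcongr with j _ i _
        · exact h.col j
        · exact h.row i
    _ = _ := by simp

lemma pure_diag {a b c : Matrix n n ℝ} (ha : Contr a) (hb : Contr b) (hc : Contr c)
    (d0 d1 d2 : n → ℝ) :
    3 * |(diagonal d0 * a * diagonal d1 * b * diagonal d2 * c).trace|
      ≤ ∑ i, |d0 i| ^ 3 + ∑ i, |d1 i| ^ 3 + ∑ i, |d2 i| ^ 3 := by
  have e : (diagonal d0 * a * diagonal d1 * b * diagonal d2 * c).trace
      = ∑ j, d1 j * ((fun l => d2 l * b j l) ⬝ᵥ c *ᵥ (fun i => d0 i * a i j)) := by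
    have : (diagonal d0 * a * diagonal d1 * b * diagonal d2 * c).trace
        = (diagonal d1 * ((b * diagonal d2) * (c * (diagonal d0 * a)))).trace := by
      rw [show diagonal d0 * a * diagonal d1 * b * diagonal d2 * c
        = (diagonal d0 * a) * (diagonal d1 * (b * diagonal d2 * c)) by
          simp only [Matrix.mul_assoc], trace_mul_comm]
      simp only [Matrix.mul_assoc]
    rw [this]
    simp only [trace, diag, diagonal_mul]
    refine Finset.sum_congr rfl fun j _ => ?_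
    congr 1
    rw [mul_apply]
    simp only [dotProduct, mul_diagonal]
    refine Finset.sum_congr rfl fun l _ => ?_
    rw [mul_apply]
    simp only [diagonal_mul, mulVec, dotProduct]
    ring
  have h1 := weighted_sum ha d0 d1
  have h2 := weighted_sum hb.transpose d2 d1
  simp only [transpose_apply] at h2
  have h3 : 2 * |∑ j, d1 j * ((fun l => d2 l * b j l) ⬝ᵥ c *ᵥ (fun i => d0 i * a i j))|
      ≤ ∑ j, |d1 j| * ∑ i, (d0 i * a i j) ^ 2 + ∑ j, |d1 j| * ∑ l, (d2 l * b j l) ^ 2 := by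
    calc _ ≤ 2 * ∑ j, |d1 j * ((fun l => d2 l * b j l) ⬝ᵥ c *ᵥ (fun i => d0 i * a i j))| := by
          gcongr
          exact Finset.abs_sum_le_sum_abs _ _
      _ = ∑ j, |d1 j| * (2 * |((fun l => d2 l * b j l) ⬝ᵥ c *ᵥ (fun i => d0 i * a i j))|) := by
          rw [Finset.mul_sum]
          refine Finset.sum_congr rfl fun j _ => ?_
          rw [abs_mul]; ring
      _ ≤ ∑ j, |d1 j| * (∑ i, (d0 i * a i j) ^ 2 + ∑ l, (d2 l * b j l) ^ 2) := by
          gcongr with j _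
          have := hc.bilin (fun i => d0 i * a i j) (fun l => d2 l * b j l)
          simpa only [dotProduct, pow_two] using this
      _ = _ := by simp only [mul_add, Finset.sum_add_distrib]
  rw [e]
  linarith

lemma exists_diag_cube {m S : Matrix n n ℝ} (hS : Sᵀ = S) (h1 : (m - S).PosSemidef)
    (h2 : (m + S).PosSemidef) :
    ∃ (V : Matrix n n ℝ) (d : n → ℝ), Vᵀ * V = 1 ∧ V * Vᵀ = 1 ∧ S = V * diagonal d * Vᵀ ∧
      ∑ i, |d i| ^ 3 ≤ (m * S * S).trace := by
  obtain ⟨V, d, hV1, hV2, rfl⟩ := exists_diag hS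
  refine ⟨V, d, hV1, hV2, rfl, ?_⟩
  have e : (m * (V * diagonal d * Vᵀ) * (V * diagonal d * Vᵀ)).trace
      = ∑ i, (Vᵀ * m * V) i i * d i ^ 2 := by
    rw [Matrix.mul_assoc, conj_mul_conj hV1, ← Matrix.mul_assoc, trace_mul_comm,
      diagonal_mul_diagonal]
    rw [show Vᵀ * (m * (V * diagonal fun i => d i * d i))
      = (Vᵀ * m * V) * diagonal fun i => d i * d i by simp only [Matrix.mul_assoc]]
    simp only [trace, diag, mul_diagonal, pow_two]
  rw [e]
  refine Finset.sum_le_sum fun i _ => ?_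
  have g1 := (psd_conj h1 V).diag_nonneg (i := i)
  have g2 := (psd_conj h2 V).diag_nonneg (i := i)
  rw [Matrix.mul_sub, Matrix.sub_mul, conj_back hV1] at g1
  rw [Matrix.mul_add, Matrix.add_mul, conj_back hV1] at g2
  simp only [Matrix.sub_apply, Matrix.add_apply, diagonal_apply_eq] at g1 g2
  have : |d i| ≤ (Vᵀ * m * V) i i := abs_le.2 ⟨by linarith, by linarith⟩
  calc |d i| ^ 3 = |d i| * d i ^ 2 := by rw [← sq_abs (d i)]; ring
    _ ≤ _ := by gcongr

lemma pure_bound {a b c m0 m1 m2 S0 S1 S2 : Matrix n n ℝ} (ha : Contr a) (hb : Contr b)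
    (hc : Contr c) (hS0 : S0ᵀ = S0) (hS1 : S1ᵀ = S1) (hS2 : S2ᵀ = S2)
    (p0 : (m0 - S0).PosSemidef) (q0 : (m0 + S0).PosSemidef)
    (p1 : (m1 - S1).PosSemidef) (q1 : (m1 + S1).PosSemidef)
    (p2 : (m2 - S2).PosSemidef) (q2 : (m2 + S2).PosSemidef) :
    3 * |(S0 * a * S1 * b * S2 * c).trace|
      ≤ (m0 * S0 * S0).trace + (m1 * S1 * S1).trace + (m2 * S2 * S2).trace := by
  obtain ⟨V0, d0, u0, u0', e0, c0⟩ := exists_diag_cube hS0 p0 q0
  obtain ⟨V1, d1, u1, u1', e1, c1⟩ := exists_diag_cube hS1 p1 q1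
  obtain ⟨V2, d2, u2, u2', e2, c2⟩ := exists_diag_cube hS2 p2 q2
  have k0 := contr_of_orth u0
  have k1 := contr_of_orth u1
  have k2 := contr_of_orth u2
  have := pure_diag ((k0.transpose.mul ha).mul k1) ((k1.transpose.mul hb).mul k2)
    ((k2.transpose.mul hc).mul k0) d0 d1 d2
  have e : (S0 * a * S1 * b * S2 * c).trace
      = (diagonal d0 * (V0ᵀ * a * V1) * diagonal d1 * (V1ᵀ * b * V2) * diagonal d2
        * (V2ᵀ * c * V0)).trace := by
    conv_lhs => rw [e0, e1, e2]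
    simp only [Matrix.mul_assoc]
    rw [trace_mul_comm V0]
    simp only [Matrix.mul_assoc]
  rw [e]
  linarith

omit [DecidableEq n] [DecidableEq k] in
lemma psd_blocks {A : Matrix n n ℝ} {B : Matrix k k ℝ} (hA : A.PosSemidef) (hB : B.PosSemidef) :
    (fromBlocks A 0 0 B).PosSemidef := by
  refine PosSemidef.of_dotProduct_mulVec_nonneg (herm_of_symm ?_) fun x => ?_
  · simp [fromBlocks_transpose, symm_of_psd hA, symm_of_psd hB]
  · have h1 := hA.dotProduct_mulVec_nonneg (x ∘ Sum.inl)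
    have h2 := hB.dotProduct_mulVec_nonneg (x ∘ Sum.inr)
    rw [fromBlocks_mulVec]
    simp only [star_trivial, zero_mulVec, add_zero, zero_add] at h1 h2 ⊢
    conv_rhs => lhs; rw [← Sum.elim_comp_inl_inr x]
    rw [sumElim_dotProduct_sumElim]
    linarith

lemma pd_blocks {A : Matrix n n ℝ} {B : Matrix k k ℝ} (hA : A.PosDef) (hB : B.PosDef) :
    (fromBlocks A 0 0 B).PosDef := by
  rw [(psd_blocks hA.posSemidef hB.posSemidef).posDef_iff_isUnit, isUnit_iff_isUnit_det,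
    det_fromBlocks_zero₂₁]
  exact ((isUnit_iff_isUnit_det A).1 hA.isUnit).mul ((isUnit_iff_isUnit_det B).1 hB.isUnit)

lemma block_bilin {m1 m2 b : Matrix n n ℝ} (h1 : m1.PosDef) (h2 : m2.PosDef)
    (g1 : (m1 * m1 - b * bᵀ).PosSemidef) (g2 : (m2 * m2 - bᵀ * b).PosSemidef)
    (X Y : Matrix n n ℝ) :
    2 * (Xᵀ * b * Y).trace ≤ (Xᵀ * m1 * X).trace + (Yᵀ * m2 * Y).trace := by
  have s1 := symm_of_psd h1.posSemidef
  have s2 := symm_of_psd h2.posSemidef
  set D : Matrix (n ⊕ n) (n ⊕ n) ℝ := fromBlocks m1 0 0 m2 with hD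
  set E : Matrix (n ⊕ n) (n ⊕ n) ℝ := fromBlocks m1 (-b) (-bᵀ) m2 with hE
  have hEs : Eᵀ = E := by simp [hE, fromBlocks_transpose, s1, s2]
  have hpsd : E.PosSemidef := by
    refine lyap_pos (pd_blocks h1 h2) hEs ?_
    have k1 : (E * E).PosSemidef := by
      have := psd_tmul E
      rwa [hEs] at this
    have k2 := psd_blocks g1 g2
    have : fromBlocks m1 0 0 m2 * E + E * fromBlocks m1 0 0 m2
        = E * E + fromBlocks (m1 * m1 - b * bᵀ) 0 0 (m2 * m2 - bᵀ * b) := by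
      simp only [hE, fromBlocks_multiply, fromBlocks_add, Matrix.zero_mul, Matrix.mul_zero,
        add_zero, zero_add, Matrix.mul_neg, Matrix.neg_mul, neg_neg]
      congr 1 <;> abel
    rw [this]
    exact k1.add k2
  have k3 := (psd_conj hpsd (fromRows X Y)).trace_nonneg
  rw [transpose_fromRows, hE, fromCols_mul_fromBlocks, fromCols_mul_fromRows] at k3
  have e : (Yᵀ * (bᵀ * X)).trace = (Xᵀ * (b * Y)).trace := by
    rw [← trace_transpose]
    simp only [transpose_mul, transpose_transpose, Matrix.mul_assoc]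
  simp only [Matrix.mul_neg, Matrix.neg_mul, Matrix.add_mul, trace_add, trace_neg,
    Matrix.mul_assoc] at k3 ⊢
  linarith

lemma mixed_bound {U m1 m2 b S1 S2 : Matrix n n ℝ} (hU : Contr U) (h1 : m1.PosDef)
    (h2 : m2.PosDef) (g1 : (m1 * m1 - b * bᵀ).PosSemidef) (g2 : (m2 * m2 - bᵀ * b).PosSemidef)
    (hS1 : S1ᵀ = S1) (hS2 : S2ᵀ = S2) :
    2 * |(U * S1 * b * S2).trace| ≤ (m1 * S1 * S1).trace + (m2 * S2 * S2).trace := by
  have k1 := block_bilin h1 h2 g1 g2 (S1 * Uᵀ) S2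
  have k2 := block_bilin h1 h2 g1 g2 (-(S1 * Uᵀ)) S2
  have k3 : 0 ≤ ((S1ᵀ * m1 * S1) * (1 - Uᵀ * U)).trace :=
    trace_mul_nonneg (psd_conj h1.posSemidef S1) hU
  have e1 : (U * (S1 * (m1 * (S1 * Uᵀ)))).trace = (S1 * (m1 * (S1 * (Uᵀ * U)))).trace := by
    rw [trace_mul_comm U]
    simp only [Matrix.mul_assoc]
  have e2 : (S1 * (m1 * S1)).trace = (m1 * (S1 * S1)).trace := by
    rw [trace_mul_comm S1, Matrix.mul_assoc]
  have e3 : (S2 * (m2 * S2)).trace = (m2 * (S2 * S2)).trace := by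
    rw [trace_mul_comm S2, Matrix.mul_assoc]
  simp only [transpose_mul, transpose_transpose, transpose_neg, hS1, hS2, Matrix.mul_assoc,
    Matrix.mul_neg, Matrix.neg_mul, neg_neg, trace_neg, Matrix.mul_sub, Matrix.mul_one,
    trace_sub] at k1 k2 k3 ⊢
  rcases abs_cases ((U * (S1 * (b * S2))).trace) with h5 | h5 <;> linarith [h5.1]

lemma contr_mul_inv {m a : Matrix n n ℝ} (h : m.PosDef) (g : (m * m - aᵀ * a).PosSemidef) :
    Contr (a * m⁻¹) := by
  have hu : IsUnit m.det := (isUnit_iff_isUnit_det m).1 h.isUnit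
  have hi1 : m⁻¹ * m = 1 := nonsing_inv_mul m hu
  have hi2 : m * m⁻¹ = 1 := mul_nonsing_inv m hu
  have hs : m⁻¹ᵀ = m⁻¹ := symm_of_psd h.inv.posSemidef
  have := psd_conj g m⁻¹
  unfold Contr
  convert this using 1
  rw [transpose_mul, hs]
  calc 1 - m⁻¹ * aᵀ * (a * m⁻¹) = (m⁻¹ * m) * (m * m⁻¹) - m⁻¹ * aᵀ * (a * m⁻¹) := by
        simp [hi1, hi2]
    _ = _ := by simp only [Matrix.mul_sub, Matrix.sub_mul, Matrix.mul_assoc]

lemma contr_inv_mul {m a : Matrix n n ℝ} (h : m.PosDef) (g : (m * m - a * aᵀ).PosSemidef) :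
    Contr (m⁻¹ * a) := by
  have hs : m⁻¹ᵀ = m⁻¹ := symm_of_psd h.inv.posSemidef
  have := (contr_mul_inv (a := aᵀ) h (by simpa using g)).transpose
  rwa [transpose_mul, hs, transpose_transpose] at this

lemma split_sigma {m S σ : Matrix n n ℝ} (h : m.PosDef) (e : m * S + S * m = m * σ * m) :
    σ = S * m⁻¹ + m⁻¹ * S := by
  have hu : IsUnit m.det := (isUnit_iff_isUnit_det m).1 h.isUnit
  have hi1 : m⁻¹ * m = 1 := nonsing_inv_mul m hu
  have hi2 : m * m⁻¹ = 1 := mul_nonsing_inv m hu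
  calc σ = (m⁻¹ * m) * σ * (m * m⁻¹) := by simp [hi1, hi2]
    _ = m⁻¹ * (m * σ * m) * m⁻¹ := by simp only [Matrix.mul_assoc]
    _ = (m⁻¹ * m) * S * m⁻¹ + m⁻¹ * S * (m * m⁻¹) := by
        rw [← e]; simp only [Matrix.mul_add, Matrix.add_mul, Matrix.mul_assoc]
    _ = _ := by simp [hi1, hi2]

/-- The data attached to one of the three spaces. -/
structure Good (σ m S : Matrix n n ℝ) : Prop where
  pd : m.PosDef
  symm : Sᵀ = S
  lyap : m * S + S * m = m * σ * m
  sub : (m - S).PosSemidef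
  add : (m + S).PosSemidef

lemma trilinear {σ a b c m0 m1 m2 S0 S1 S2 : Matrix n n ℝ} (hσ : Contr σ)
    (G0 : Good σ m0 S0) (G1 : Good σ m1 S1) (G2 : Good σ m2 S2)
    (a0 : (m0 * m0 - a * aᵀ).PosSemidef) (a1 : (m1 * m1 - aᵀ * a).PosSemidef)
    (b1 : (m1 * m1 - b * bᵀ).PosSemidef) (b2 : (m2 * m2 - bᵀ * b).PosSemidef)
    (c2 : (m2 * m2 - c * cᵀ).PosSemidef) (c0 : (m0 * m0 - cᵀ * c).PosSemidef) :
    3 * |(σ * a * σ * b * σ * c).trace|
      ≤ 5 * ((m0 * S0 * S0).trace + (m1 * S1 * S1).trace + (m2 * S2 * S2).trace) := by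
  have la := contr_inv_mul G0.pd a0
  have ra := contr_mul_inv G1.pd a1
  have lb := contr_inv_mul G1.pd b1
  have rb := contr_mul_inv G2.pd b2
  have lc := contr_inv_mul G2.pd c2
  have rc := contr_mul_inv G0.pd c0
  have t1 := pure_bound la lb lc G0.symm G1.symm G2.symm G0.sub G0.add G1.sub G1.add G2.sub G2.add
  have t2 := pure_bound ra rb rc G0.symm G1.symm G2.symm G0.sub G0.add G1.sub G1.add G2.sub G2.add
  have t3 := mixed_bound ((lc.mul hσ).mul ra) G1.pd G2.pd b1 b2 G1.symm G2.symm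
  have t4 := mixed_bound ((la.mul hσ).mul rb) G2.pd G0.pd c2 c0 G2.symm G0.symm
  have t5 := mixed_bound ((lb.mul hσ).mul rc) G0.pd G1.pd a0 a1 G0.symm G1.symm
  have s0 := split_sigma G0.pd G0.lyap
  have s1 := split_sigma G1.pd G1.lyap
  have s2 := split_sigma G2.pd G2.lyap
  generalize m0⁻¹ = i0 at *
  generalize m1⁻¹ = i1 at *
  generalize m2⁻¹ = i2 at *
  have key : ∀ p0 q0 p1 q1 p2 q2 : Matrix n n ℝ,
      ((p0 + q0) * a * (p1 + q1) * b * (p2 + q2) * c).trace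
        = (p0 * a * p1 * b * p2 * c).trace + (q0 * a * q1 * b * q2 * c).trace
          + ((p0 + q0) * a * q1 * b * p2 * c).trace + (p0 * a * (p1 + q1) * b * q2 * c).trace
          + (q0 * a * p1 * b * (p2 + q2) * c).trace := by
    intro p0 q0 p1 q1 p2 q2
    simp only [Matrix.mul_add, Matrix.add_mul, trace_add]
    ring
  have key' := key (S0 * i0) (i0 * S0) (S1 * i1) (i1 * S1) (S2 * i2) (i2 * S2)
  rw [← s0, ← s1, ← s2] at key'
  have e1 : (S0 * i0 * a * (S1 * i1) * b * (S2 * i2) * c).trace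
      = (S0 * (i0 * a) * S1 * (i1 * b) * S2 * (i2 * c)).trace := by
    simp only [Matrix.mul_assoc]
  have e2 : (i0 * S0 * a * (i1 * S1) * b * (i2 * S2) * c).trace
      = (S0 * (a * i1) * S1 * (b * i2) * S2 * (c * i0)).trace := by
    simp only [Matrix.mul_assoc]
    rw [trace_mul_comm i0]
    simp only [Matrix.mul_assoc]
  have e3 : (σ * a * (i1 * S1) * b * (S2 * i2) * c).trace
      = (i2 * c * σ * (a * i1) * S1 * b * S2).trace := by
    rw [show σ * a * (i1 * S1) * b * (S2 * i2) * c = (σ * a * (i1 * S1) * b * S2) * (i2 * c) by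
      simp only [Matrix.mul_assoc], trace_mul_comm]
    simp only [Matrix.mul_assoc]
  have e4 : (S0 * i0 * a * σ * b * (i2 * S2) * c).trace
      = (i0 * a * σ * (b * i2) * S2 * c * S0).trace := by
    simp only [Matrix.mul_assoc]
    rw [trace_mul_comm S0]
    simp only [Matrix.mul_assoc]
  have e5 : (i0 * S0 * a * (S1 * i1) * b * σ * c).trace
      = (i1 * b * σ * (c * i0) * S0 * a * S1).trace := by
    rw [show i0 * S0 * a * (S1 * i1) * b * σ * c = (i0 * S0 * a * S1) * (i1 * b * σ * c) by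
      simp only [Matrix.mul_assoc], trace_mul_comm]
    simp only [Matrix.mul_assoc]
  rw [key', e1, e2, e3, e4, e5]
  refine le_trans (mul_le_mul_of_nonneg_left (le_trans (abs_add_le _ _) (add_le_add_left
    (le_trans (abs_add_le _ _) (add_le_add_left (le_trans (abs_add_le _ _)
      (add_le_add_left (abs_add_le _ _) _)) _)) _)) (by norm_num)) ?_
  linarith

end Vale.Agent.P075
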